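import Mathlib

/-!
# P207, all dimensions: derivatives of two families of charts which differ by affine maps
-/

open Set Filter Topology Metric Asymptotics
open scoped ContDiff

noncomputable section

namespace Vale.Agent.P207.H883.AffCore

section zero

variable {E F G : Type*} [NormedAddCommGroup E] [NormedSpace ℝ E] [NormedAddCommGroup F]
  [NormedSpace ℝ F] [NormedAddCommGroup G] [NormedSpace ℝ G]

/-- product of a continuous family of linear maps with a vanishing differentiable map -/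
lemma hasFDerivAt_clm_zero {Q : E → F →L[ℝ] G} {R : E → F} {R' : E →L[ℝ] F} {z0 : E}
    (hQ : ContinuousAt Q z0) (hR : HasFDerivAt R R' z0) (h0 : R z0 = 0) :
    HasFDerivAt (fun z => Q z (R z)) ((Q z0).comp R') z0 := by
  have h1 : HasFDerivAt (fun z => Q z0 (R z)) ((Q z0).comp R') z0 :=
    (Q z0).hasFDerivAt.comp z0 hR
  have h2 : HasFDerivAt (fun z => (Q z - Q z0) (R z)) (0 : E →L[ℝ] G) z0 := by
    rw [hasFDerivAt_iff_isLittleO]
    have e0 : (fun z => (Q z - Q z0) (R z) - (Q z0 - Q z0) (R z0) - (0 : E →L[ℝ] G) (z - z0))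
        = fun z => (Q z - Q z0) (R z) := by
      funext z
      simp
    rw [e0]
    have hO : (fun z => R z - R z0) =O[𝓝 z0] fun z => z - z0 := hR.isBigO_sub
    have hO' : R =O[𝓝 z0] fun z => z - z0 := by
      refine hO.congr (fun z => ?_) fun z => rfl
      rw [h0, sub_zero]
    have ho : (fun z => Q z - Q z0) =o[𝓝 z0] fun _ => (1 : ℝ) := by
      rw [isLittleO_one_iff]
      have := hQ.tendsto.sub_const (Q z0)
      rwa [sub_self] at this
    have hb : (fun z => (Q z - Q z0) (R z)) =O[𝓝 z0] fun z => ‖Q z - Q z0‖ * ‖R z‖ := by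
      refine IsBigO.of_bound 1 (Eventually.of_forall fun z => ?_)
      rw [one_mul, norm_mul, norm_norm, norm_norm]
      exact (Q z - Q z0).le_opNorm _
    refine hb.trans_isLittleO ?_
    have h := ho.norm_left.mul_isBigO hO'.norm_norm
    simp only [one_mul] at h
    exact h.of_norm_right
  have h3 := h1.add h2
  rw [add_zero] at h3
  refine h3.congr_of_eventuallyEq (Eventually.of_forall fun z => ?_)
  simp

end zero

/-- Euclidean space -/
abbrev Eu8 (m : ℕ) : Type := EuclideanSpace ℝ (Fin m)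

variable {m : ℕ}

/-- the linear map with given values on the basis -/
def mk (v : Fin m → (Eu8 m)) : (Eu8 m) →L[ℝ] (Eu8 m) :=
  ∑ i, ContinuousLinearMap.smulRightL ℝ (Eu8 m) (Eu8 m) (EuclideanSpace.proj i) (v i)

lemma mk_single (v : Fin m → (Eu8 m)) (i : Fin m) : mk v (EuclideanSpace.single i 1) = v i := by
  unfold mk
  rw [sum_apply]
  rw [Finset.sum_eq_single i]
  · simp
  · intro j _ hj
    simp [hj]
  · intro h
    exact absurd (Finset.mem_univ i) h

lemma ext_single {T T' : (Eu8 m) →L[ℝ] (Eu8 m)} (h : ∀ i, T (EuclideanSpace.single i 1) =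
    T' (EuclideanSpace.single i 1)) : T = T' := by
  refine ContinuousLinearMap.coe_injective ((EuclideanSpace.basisFun (Fin m) ℝ).toBasis.ext
    fun i => ?_)
  simpa using h i

/-- **the core** -/
theorem aff_core {F G : (Eu8 m) → (Eu8 m) → (Eu8 m)} {N : (Eu8 m) → (Eu8 m) →L[ℝ] (Eu8 m)} {c : (Eu8 m) → (Eu8 m)}
    {F' G' : (Eu8 m) → (Eu8 m) →L[ℝ] (Eu8 m)} {M : (Eu8 m) →L[ℝ] (Eu8 m)} {b : (Eu8 m)}
    (h1 : ∀ X, ∀ᶠ z in 𝓝 0, G z X = N z (F z X) + c z)
    (hF : ∀ X, HasFDerivAt (fun z => F z X) (F' X) 0)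
    (hG : ∀ X, HasFDerivAt (fun z => G z X) (G' X) 0)
    (F0 : ∀ X, F 0 X = X) (G0 : ∀ X, G 0 X = M X + b) (X : (Eu8 m)) :
    G' ((2 : ℝ) • X) - (2 : ℝ) • G' X + G' 0 =
      M.comp (F' ((2 : ℝ) • X) - (2 : ℝ) • F' X + F' 0) := by
  set W : (Eu8 m) → (Eu8 m) →L[ℝ] (Eu8 m) := fun z => mk fun i => F z (EuclideanSpace.single i 1) - F z 0 with hW
  set V : (Eu8 m) → (Eu8 m) →L[ℝ] (Eu8 m) := fun z => mk fun i => G z (EuclideanSpace.single i 1) - G z 0 with hV
  have hFc : ∀ X, ContinuousAt (fun z => F z X) 0 := fun X => (hF X).continuousAt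
  have hGc : ∀ X, ContinuousAt (fun z => G z X) 0 := fun X => (hG X).continuousAt
  have hWc : ContinuousAt W 0 := by
    rw [hW]
    unfold mk
    refine tendsto_finsetSum _ fun i _ => ?_
    exact ((ContinuousLinearMap.smulRightL ℝ (Eu8 m) (Eu8 m) (EuclideanSpace.proj i)).continuous.tendsto
      _).comp ((hFc _).sub (hFc 0))
  have hVc : ContinuousAt V 0 := by
    rw [hV]
    unfold mk
    refine tendsto_finsetSum _ fun i _ => ?_
    exact ((ContinuousLinearMap.smulRightL ℝ (Eu8 m) (Eu8 m) (EuclideanSpace.proj i)).continuous.tendsto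
      _).comp ((hGc _).sub (hGc 0))
  have hW0 : W 0 = 1 := by
    refine ext_single fun i => ?_
    rw [hW]
    simp only
    rw [mk_single, F0, F0, sub_zero]
    rfl
  have hV0 : V 0 = M := by
    refine ext_single fun i => ?_
    rw [hV]
    simp only
    rw [mk_single, G0, G0, map_zero, zero_add, add_sub_cancel_right]
  have hVN : ∀ᶠ z in 𝓝 (0 : (Eu8 m)), V z = (N z).comp (W z) := by
    have h2 : ∀ᶠ z in 𝓝 (0 : (Eu8 m)), ∀ i : Fin m, G z (EuclideanSpace.single i 1) =
        N z (F z (EuclideanSpace.single i 1)) + c z := eventually_all.2 fun i => h1 _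
    filter_upwards [h2, h1 0] with z hz hz0
    refine ext_single fun i => ?_
    rw [ContinuousLinearMap.comp_apply, hV, hW]
    simp only
    rw [mk_single, mk_single, hz i, hz0, map_sub]
    abel
  have hunit : IsUnit (W 0) := by rw [hW0]; exact isUnit_one
  have hJc : ContinuousAt (fun z => Ring.inverse (W z)) 0 := by
    obtain ⟨u, hu⟩ := hunit
    have h3 : ContinuousAt (Ring.inverse : ((Eu8 m) →L[ℝ] (Eu8 m)) → _) (W 0) := by
      rw [← hu]
      exact NormedRing.inverse_continuousAt u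
    exact h3.comp hWc
  have hUn : ∀ᶠ z in 𝓝 (0 : (Eu8 m)), IsUnit (W z) := by
    have : {T : (Eu8 m) →L[ℝ] (Eu8 m) | IsUnit T} ∈ 𝓝 (W 0) := Units.isOpen.mem_nhds hunit
    exact hWc this
  set Q : (Eu8 m) → (Eu8 m) →L[ℝ] (Eu8 m) := fun z => (V z).comp (Ring.inverse (W z)) with hQ
  have hQc : ContinuousAt Q 0 := hVc.clm_comp hJc
  have hQ0 : Q 0 = M := by
    rw [hQ]
    simp only
    rw [hW0, hV0, Ring.inverse_one]
    rfl
  have hNQ : ∀ᶠ z in 𝓝 (0 : (Eu8 m)), N z = Q z := by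
    filter_upwards [hVN, hUn] with z hz hz'
    rw [hQ]
    simp only
    rw [hz, ContinuousLinearMap.comp_assoc]
    have : (W z).comp (Ring.inverse (W z)) = 1 := Ring.mul_inverse_cancel _ hz'
    rw [this]
    rfl
  have hR : HasFDerivAt (fun z => F z ((2 : ℝ) • X) - (2 : ℝ) • F z X + F z 0)
      (F' ((2 : ℝ) • X) - (2 : ℝ) • F' X + F' 0) 0 :=
    ((hF _).sub ((hF X).const_smul (2 : ℝ))).add (hF 0)
  have hT : HasFDerivAt (fun z => G z ((2 : ℝ) • X) - (2 : ℝ) • G z X + G z 0)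
      (G' ((2 : ℝ) • X) - (2 : ℝ) • G' X + G' 0) 0 :=
    ((hG _).sub ((hG X).const_smul (2 : ℝ))).add (hG 0)
  have hR0 : F 0 ((2 : ℝ) • X) - (2 : ℝ) • F 0 X + F 0 0 = 0 := by
    rw [F0, F0, F0]; abel
  have h5 := hasFDerivAt_clm_zero hQc hR hR0
  rw [hQ0] at h5
  refine hT.unique (h5.congr_of_eventuallyEq ?_)
  filter_upwards [hNQ, h1 ((2 : ℝ) • X), h1 X, h1 0] with z z1 z2 z3 z4
  rw [z2, z3, z4, ← z1, map_add, map_sub, map_smul, smul_add]
  have : (2 : ℝ) • c z = c z + c z := two_smul ℝ _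
  rw [this]
  abel

end Vale.Agent.P207.H883.AffCore
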