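import Vale.Agent.P207.H883.St8

/-!
# P207, all dimensions: invariant conformal structure in the affine charts (interface)

`T x` is a linear map such that `‖T x u‖` is the norm of the conformal structure at `x`. `law`: all
transitions are conformal, the factor is the one of the determinant. `conf`: the factor of the
transition to another leaf is `c / |z - p|²`, `p` the point at infinity of the other leaf.
-/

open Set Filter Topology Metric MeasureTheory
open scoped ContDiff

noncomputable section

namespace Vale.Agent.P207.N4.H883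

variable [Dim]

variable {Γ X B : Type} [Group Γ] [MetricSpace X] [ProperSpace X] [MulAction Γ X]
  [IsIsometricSMul Γ X] [TopologicalSpace B] [CompactSpace B] [T2Space B] [MulAction Γ B]
  [ContinuousConstSMul Γ B] [MeasurableSpace B] [BorelSpace B]

/-- the invariant conformal structure -/
structure Cf8 {L : Leaf Γ X B} (S : AffS L) (A : Area L) where
  T : X → E2 ≃L[ℝ] E2
  law : ∀ x y z, S.ai x z ≠ L.em y → ∀ s : ℝ, 0 < s → s ^ Dim.m * |(S.D x y z).det| = 1 →
    ∀ u, ‖T y (S.D x y z u)‖ = s⁻¹ * ‖T x u‖
  conf : ∀ x y, L.em x ≠ L.em y → ∃ c > 0, ∀ z, S.ai x z ≠ L.em y → ∀ u,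
    ‖T y (S.D x y z u)‖ = c / ‖T x z - T x (S.a x (L.em y))‖ ^ 2 * ‖T x u‖

end Vale.Agent.P207.N4.H883
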