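import Vale.Agent.P207.H883.AffCore

/-!
# P207, all dimensions: small lemmas for the curves
-/

open Set Filter Topology Metric Asymptotics
open scoped ContDiff

noncomputable section

namespace Vale.Agent.P207.H883.AffCore

section ev

variable {E : Type*} [NormedAddCommGroup E] [NormedSpace ℝ E] [FiniteDimensional ℝ E]

/-- evaluation in the last argument -/
def evP (P : E →L[ℝ] E →L[ℝ] E →L[ℝ] E) (α : E) : E →L[ℝ] E →L[ℝ] E :=
  LinearMap.toContinuousLinearMap
    { toFun := fun u => (ContinuousLinearMap.apply ℝ E α).comp (P u)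
      map_add' := fun u v => by ext w; simp
      map_smul' := fun r u => by ext w; simp }

lemma evP_apply (P : E →L[ℝ] E →L[ℝ] E →L[ℝ] E) (α u v : E) : evP P α u v = P u v α := rfl

end ev

lemma exists_root {m : ℕ} (hm : 0 < m) {d : ℝ} (hd : 0 < d) : ∃ s : ℝ, 0 < s ∧ s ^ m * d = 1 := by
  refine ⟨(d⁻¹) ^ ((m : ℝ)⁻¹), by positivity, ?_⟩
  rw [Real.rpow_inv_natCast_pow (by positivity) hm.ne', inv_mul_cancel₀ hd.ne']

variable {m : ℕ}

lemma tendsto_mk {ι : Type*} {l : Filter ι} {F : ι → Fin m → (Eu8 m)} {F0 : Fin m → (Eu8 m)}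
    (hF : ∀ i, Tendsto (fun z => F z i) l (𝓝 (F0 i))) :
    Tendsto (fun z => mk (F z)) l (𝓝 (mk F0)) := by
  unfold mk
  refine tendsto_finsetSum _ fun i _ => ?_
  exact ((ContinuousLinearMap.smulRightL ℝ (Eu8 m) (Eu8 m) (EuclideanSpace.proj i)).continuous.tendsto
      _).comp (hF i)

lemma mk_id : mk (fun i : Fin m => (EuclideanSpace.single i (1 : ℝ) : (Eu8 m))) = 1 := by
  refine ext_single fun i => ?_
  rw [mk_single]
  rfl

/-- linear maps which map approximations of the basis to approximations of the basis -/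
lemma conv_one {ι : Type*} {l : Filter ι} {N : ι → (Eu8 m) →L[ℝ] (Eu8 m)} {F H : ι → Fin m → (Eu8 m)}
    (hF : ∀ i, Tendsto (fun z => F z i) l (𝓝 (EuclideanSpace.single i 1)))
    (hH : ∀ i, Tendsto (fun z => H z i) l (𝓝 (EuclideanSpace.single i 1)))
    (h : ∀ᶠ z in l, ∀ i, H z i = N z (F z i)) : Tendsto N l (𝓝 1) := by
  have h1 := tendsto_mk hF
  have h2 := tendsto_mk hH
  rw [mk_id] at h1 h2
  have h3 : Tendsto (fun z => Ring.inverse (mk (F z))) l (𝓝 1) := by
    have h4 : ContinuousAt (Ring.inverse : ((Eu8 m) →L[ℝ] (Eu8 m)) → _) 1 :=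
      NormedRing.inverse_continuousAt (1 : ((Eu8 m) →L[ℝ] (Eu8 m))ˣ)
    have h5 := h4.tendsto.comp h1
    rwa [Ring.inverse_one] at h5
  have hU : ∀ᶠ z in l, IsUnit (mk (F z)) :=
    h1 (Units.isOpen.mem_nhds (isUnit_one : IsUnit (1 : (Eu8 m) →L[ℝ] (Eu8 m))))
  have h6 : Tendsto (fun z => (mk (H z)) * (Ring.inverse (mk (F z)))) l (𝓝 (1 * 1)) := h2.mul h3
  rw [one_mul] at h6
  refine h6.congr' ?_
  filter_upwards [h, hU] with z hz hz'
  have e : mk (H z) = (N z) * (mk (F z)) := by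
    refine ext_single fun i => ?_
    rw [mk_single, hz i]
    show _ = N z (mk (F z) _)
    rw [mk_single]
  rw [e, mul_assoc, Ring.mul_inverse_cancel _ hz', mul_one]

end Vale.Agent.P207.H883.AffCore
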