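import Vale.Agent.P207.H883.Rho8
import Vale.Agent.P207.H883.Conv1
import Vale.Agent.P207.H883.Cf8
import Vale.Agent.P207.H799.Crv
import Vale.Agent.P207.H799.Mom

/-!
# P207, all dimensions: the normalised charts along a stable line; nondegeneracy; the invariant
conformal structure
-/

open Set Filter Topology Metric MeasureTheory
open scoped ContDiff ENNReal

noncomputable section

namespace Vale.Agent.P207.N4.H883

open Vale.Agent.P207.H883.AffCore (evP evP_apply conv_one exists_root)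
open Vale.Agent.P207.H799 (nondegN curve_conf Pos2 pos2_of_det exists_conf)

variable [Dim]

lemma m_pos : 0 < Dim.m := lt_of_lt_of_le two_pos Dim.two_le

variable {Γ X B : Type} [Group Γ] [MetricSpace X] [ProperSpace X] [MulAction Γ X]
  [IsIsometricSMul Γ X] [TopologicalSpace B] [CompactSpace B] [T2Space B] [MulAction Γ B]
  [ContinuousConstSMul Γ B]

variable {L : Leaf Γ X B}

namespace St8

variable (S : St8 L)

/-- continuity of the holonomies along the stable leaf, at the base -/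
lemma kp_tendsto_zero (x : X) : Tendsto (fun z => S.kp x (S.yy x z)) (𝓝 0) (𝓝 1) := by
  refine conv_one (F := fun z i => S.nb x z (S.ai x (EuclideanSpace.single i 1)))
    (H := fun z i => S.a (S.yy x z) (S.ai x (EuclideanSpace.single i 1))) ?_ ?_ ?_
  · intro i
    have h := (S.hasFDerivAt_nb x (S.ai_ne x (EuclideanSpace.single i 1))).continuousAt.tendsto
    rwa [S.nb_zero, S.a_ai] at h
  · intro i
    set η := S.ai x (EuclideanSpace.single i 1) with hη
    have h1 : ContinuousAt (fun p : X × B => S.a p.1 p.2) (x, η) := by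
      refine (S.a_cont (x, η) (S.ai_ne x _)).continuousAt ?_
      refine IsOpen.mem_nhds ?_ (S.ai_ne x _)
      exact isOpen_ne_fun continuous_snd (L.em_cont.comp continuous_fst)
    have h2 : Tendsto (fun z => (S.yy x z, η)) (𝓝 0) (𝓝 (x, η)) := by
      have := (S.yy_cont x).tendsto 0
      rw [S.yy_zero] at this
      exact this.prodMk_nhds tendsto_const_nhds
    have h3 := h1.tendsto.comp h2
    have h4 : S.a x η = EuclideanSpace.single i 1 := S.a_ai x _
    rw [h4] at h3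
    exact h3
  · refine Eventually.of_forall fun z i => ?_
    exact (S.kp_kp (S.ep_yy x z) _).symm

lemma kp_tendsto (x : X) (z0 : E2) :
    Tendsto (fun z => S.kp x (S.yy x z)) (𝓝 z0) (𝓝 (S.kp x (S.yy x z0))) := by
  obtain ⟨M, hM, -⟩ := S.stab_aff x z0
  set y := S.yy x z0 with hy
  have h1 : ∀ z, S.kp x (S.yy x z) = (S.kp y (S.yy y (M (z - z0)))).comp (S.kp x y) := by
    intro z
    have h := S.yy_base x z0 M hM z
    rw [← hy] at h
    rw [h]
    exact S.kp_comp (by rw [hy, S.ep_yy]) (S.ep_yy x z).symm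
  have h2 : Tendsto (fun z : E2 => M (z - z0)) (𝓝 z0) (𝓝 0) := by
    have h3 : Continuous fun z : E2 => M (z - z0) :=
      M.continuous.comp (continuous_id.sub continuous_const)
    have h4 := h3.tendsto z0
    rwa [sub_self, map_zero] at h4
  have h3 := (S.kp_tendsto_zero y).comp h2
  have h4 : Tendsto (fun z => (S.kp y (S.yy y (M (z - z0)))) * (S.kp x y)) (𝓝 z0)
      (𝓝 (1 * (S.kp x y))) := h3.mul tendsto_const_nhds
  rw [one_mul] at h4
  exact h4.congr fun z => (h1 z).symm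

/-- the quadratic field in a fixed direction -/
def Pa (x : X) (α : E2) : E2 →L[ℝ] E2 →L[ℝ] E2 := evP (S.P x) α

lemma Pa_apply (x : X) (α u v : E2) : S.Pa x α u v = S.P x u v α := rfl

section curve

variable (x : X) (α : E2)

lemma xi_line_inj (hα : α ≠ 0) : Function.Injective fun t : ℝ => S.xi x (t • α) := by
  intro s t h
  have h1 := S.xi_inj x h
  exact smul_left_injective ℝ hα h1

lemma ode_line (t : ℝ) (η : B) (h : η ≠ S.xi x (t • α)) :
    HasDerivAt (fun s : ℝ => S.nb x (s • α) η)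
      ((1 / 2 : ℝ) • S.Pa x α (S.nb x (t • α) η) (S.nb x (t • α) η)) t :=
  S.hasDerivAt_nb x α t h

lemma blow_line (hα : α ≠ 0) (t : ℝ) :
    Tendsto (fun s : ℝ => ‖S.nb x (s • α) (S.xi x (t • α))‖) (𝓝[≠] t) atTop := by
  have hc : Tendsto (fun s : ℝ => s • α) (𝓝[≠] t) (𝓝 (t • α)) := by
    have : Continuous fun s : ℝ => s • α := by fun_prop
    exact (this.tendsto t).mono_left nhdsWithin_le_nhds
  have hy : Tendsto (fun s : ℝ => S.yy x (s • α)) (𝓝[≠] t) (𝓝 (S.yy x (t • α))) :=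
    ((S.yy_cont x).tendsto _).comp hc
  have hη : Tendsto (fun _ : ℝ => S.xi x (t • α)) (𝓝[≠] t) (𝓝 (L.em (S.yy x (t • α)))) := by
    rw [S.em_yy]
    exact tendsto_const_nhds
  have hne : ∀ᶠ s in 𝓝[≠] t, S.xi x (t • α) ≠ L.em (S.yy x (s • α)) := by
    filter_upwards [self_mem_nhdsWithin] with s hs
    rw [S.em_yy]
    intro h
    exact hs (S.xi_line_inj x α hα h.symm)
  have h1 := S.tendsto_a hy hη hne
  have hk := ((S.kp_tendsto x (t • α)).comp hc).norm
  have hk2 : ∀ᶠ s in 𝓝[≠] t, ‖S.kp x (S.yy x (s • α))‖ ≤ ‖S.kp x (S.yy x (t • α))‖ + 1 :=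
    (hk.eventually_lt_const (lt_add_one _)).mono fun s hs => hs.le
  have hpos : (0 : ℝ) < ‖S.kp x (S.yy x (t • α))‖ + 1 := by positivity
  have h2 : Tendsto (fun s : ℝ => (‖S.kp x (S.yy x (t • α))‖ + 1)⁻¹ *
      ‖S.a (S.yy x (s • α)) (S.xi x (t • α))‖) (𝓝[≠] t) atTop :=
    h1.const_mul_atTop (inv_pos.2 hpos)
  refine tendsto_atTop_mono' _ ?_ h2
  filter_upwards [hk2] with s hs
  have h3 : S.kp x (S.yy x (s • α)) (S.nb x (s • α) (S.xi x (t • α))) =
      S.a (S.yy x (s • α)) (S.xi x (t • α)) := S.kp_kp (S.ep_yy x _) _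
  rw [← h3, inv_mul_le_iff₀ hpos]
  refine (ContinuousLinearMap.le_opNorm _ _).trans ?_
  gcongr

/-- **nondegeneracy** -/
theorem nondeg {u : E2} (hu : u ≠ 0) (hα : α ≠ 0) : S.P x u u α ≠ 0 := by
  have h0 : S.xi x ((0 : ℝ) • α) = L.em x := by rw [zero_smul, S.xi_zero]
  have h := nondegN (P := S.Pa x α) (ξ := fun t : ℝ => S.xi x (t • α))
    (b := fun t η => S.nb x (t • α) η) (ai := S.ai x) (S.xi_line_inj x α hα)
    (fun X => by
      show S.ai x X ≠ S.xi x ((0 : ℝ) • α)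
      rw [h0]; exact S.ai_ne x X)
    (fun X => by
      show S.nb x ((0 : ℝ) • α) (S.ai x X) = X
      rw [zero_smul, S.nb_zero, S.a_ai])
    (fun t η h => S.ode_line x α t η h) (fun t => S.blow_line x α hα t)
    (fun z hz => by
      show Tendsto (fun n => S.ai x (z n)) atTop (𝓝 (S.xi x ((0 : ℝ) • α)))
      rw [h0]
      exact S.tendsto_ai x hz)
    (by
      intro η hη
      have hη' : η ≠ L.em (S.yy x ((1 : ℝ) • α)) := by
        rw [S.em_yy]; exact hη
      have h1 : ContinuousAt (S.a (S.yy x ((1 : ℝ) • α))) η :=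
        ((S.a_cont' _) η hη').continuousAt (isOpen_ne.mem_nhds hη')
      exact ((S.kp (S.yy x ((1 : ℝ) • α)) x).continuous.continuousAt.comp
        h1).continuousWithinAt) hu
  exact h

end curve

section conf

variable [MeasurableSpace B] [BorelSpace B] (A : Area L)

lemma pos2_rho (x : X) : Pos2 Dim.m (S.rho A x) := by
  have h := pos2_of_det (S.P x) (fun u hu a ha => S.nondeg x a hu ha)
  have hp := ss_pos A x
  refine ⟨?_, fun s u => ?_, fun u hu => ?_⟩
  · exact h.cont.div_const _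
  · unfold rho
    rw [h.hom s u, mul_div_assoc]
  · exact div_pos (h.pos u hu) hp

/-- the linear maps of the conformal structure -/
def Tc (x : X) : E2 ≃L[ℝ] E2 := (exists_conf (m := Dim.m) m_pos).choose (S.rho A x)

/-- **all transitions are conformal** -/
theorem Tc_law {x y : X} {z : E2} (hz : S.ai x z ≠ L.em y) {s : ℝ} (hs : 0 < s)
    (h : s ^ Dim.m * |(S.D x y z).det| = 1) (u : E2) :
    ‖S.Tc A y (S.D x y z u)‖ = s⁻¹ * ‖S.Tc A x u‖ := by
  have h1 := (exists_conf (m := Dim.m) m_pos).choose_spec (S.rho A x) (S.rho A y)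
    (S.pos2_rho A x) (S.pos2_rho A y) (S.De hz) (fun u => by
      rw [S.De_apply, S.De_coe]
      exact S.rho_law A hz u) s hs (by rw [S.De_coe]; exact h) u
  exact h1

include A in
lemma det_D_pos {x y : X} {z : E2} (hz : S.ai x z ≠ L.em y) : 0 < |(S.D x y z).det| := by
  rw [S.det_tr A hz]
  exact div_pos (S.dens_pos A _ _) (S.dens_pos A _ _)

/-- the factor -/
lemma Tc_exists {x y : X} {z : E2} (hz : S.ai x z ≠ L.em y) :
    ∃ r > 0, ∀ u, ‖S.Tc A y (S.D x y z u)‖ = r * ‖S.Tc A x u‖ := by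
  obtain ⟨s, hs, hs1⟩ := exists_root m_pos (S.det_D_pos A hz)
  exact ⟨s⁻¹, inv_pos.2 hs, fun u => S.Tc_law A hz hs hs1 u⟩

lemma hasFDerivAt_nb_ai (x : X) (w : E2) {Y : E2} (h : S.ai x Y ≠ S.xi x w) :
    HasFDerivAt (fun Y => S.nb x w (S.ai x Y))
      ((S.kp (S.yy x w) x).comp (S.D x (S.yy x w) Y)) Y := by
  have h' : S.ai x Y ≠ L.em (S.yy x w) := by rw [S.em_yy]; exact h
  exact (S.kp (S.yy x w) x).hasFDerivAt.comp Y (S.hasD h')

/-- the conformal factor for one line -/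
theorem line_conf (x : X) (α : E2) (hα : α ≠ 0) : ∃ c > 0, ∀ Y, S.ai x Y ≠ S.xi x α → ∀ u,
    ‖S.Tc A x (S.kp (S.yy x α) x (S.D x (S.yy x α) Y u))‖ =
      c / ‖S.Tc A x Y - S.Tc A x (S.a x (S.xi x α))‖ ^ 2 * ‖S.Tc A x u‖ := by
  have h0 : S.xi x ((0 : ℝ) • α) = L.em x := by rw [zero_smul, S.xi_zero]
  obtain ⟨e, he⟩ : ∃ e : E2, e ≠ 0 := ⟨α, hα⟩
  obtain ⟨c, hc, H⟩ := curve_conf (m := Dim.m) Dim.two_le (P := S.Pa x α)
    (fun u v => by
      rw [S.Pa_apply, S.Pa_apply, S.P_symm])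
    (ξ := fun t : ℝ => S.xi x (t • α))
    (by
      have : Continuous fun t : ℝ => t • α := by fun_prop
      exact (S.xi_cont x).comp this)
    (S.xi_line_inj x α hα)
    (b := fun t η => S.nb x (t • α) η) (ai := S.ai x)
    (fun X => by
      show S.ai x X ≠ S.xi x ((0 : ℝ) • α)
      rw [h0]; exact S.ai_ne x X)
    (fun X => by
      show S.nb x ((0 : ℝ) • α) (S.ai x X) = X
      rw [zero_smul, S.nb_zero, S.a_ai])
    (fun η hη => by
      have hη' : η ≠ L.em x := by rw [← h0]; exact hη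
      show S.ai x (S.nb x ((0 : ℝ) • α) η) = η
      rw [zero_smul, S.nb_zero, S.ai_a x η hη'])
    (S.ai_cont' x)
    (fun t η h => S.ode_line x α t η h) (fun t => S.blow_line x α hα t)
    (S := S.Tc A x)
    (fun t Y hY => by
      refine ⟨_, S.hasFDerivAt_nb_ai x (t • α) hY, ?_⟩
      have h' : S.ai x Y ≠ L.em (S.yy x (t • α)) := by rw [S.em_yy]; exact hY
      have h'' : S.ai (S.yy x (t • α)) 0 ≠ L.em x := S.ai_zero_ne (S.ep_yy x _)
      obtain ⟨r1, -, H1⟩ := S.Tc_exists A h'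
      obtain ⟨r2, -, H2⟩ := S.Tc_exists A h''
      refine ⟨r2 * r1, fun u => ?_⟩
      show ‖S.Tc A x (S.D (S.yy x (t • α)) x 0 (S.D x (S.yy x (t • α)) Y u))‖ = _
      rw [H2, H1, mul_assoc])
    ⟨e, fun h => S.nondeg x α he hα h⟩
  refine ⟨c, hc, fun Y hY u => ?_⟩
  have hY' : S.ai x Y ≠ S.xi x ((1 : ℝ) • α) := by rw [one_smul]; exact hY
  have h1 := H Y hY' u
  have h2 := (S.hasFDerivAt_nb_ai x ((1 : ℝ) • α) hY').fderiv
  rw [h2, one_smul, zero_smul, S.nb_zero] at h1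
  exact h1

/-- **the conformal factor** -/
theorem Tc_conf {x y : X} (h : L.em x ≠ L.em y) : ∃ c > 0, ∀ z, S.ai x z ≠ L.em y → ∀ u,
    ‖S.Tc A y (S.D x y z u)‖ =
      c / ‖S.Tc A x z - S.Tc A x (S.a x (L.em y))‖ ^ 2 * ‖S.Tc A x u‖ := by
  have : Nontrivial E2 := by
    have : Nonempty (Fin Dim.m) := ⟨⟨0, m_pos⟩⟩
    infer_instance
  -- a third point
  obtain ⟨z0, hz0⟩ := exists_ne (S.a x (L.em y))
  have hz0y : S.ai x z0 ≠ L.em y := by
    intro h'
    apply hz0
    rw [← h', S.a_ai]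
  obtain ⟨v, hv1, hv2, -⟩ := L.exists_frame (L.em x) (S.ai x z0) (S.ai_ne x z0).symm 0
  have hyv : L.em y ≠ L.em (L.flip v) := by rw [em_flip, hv2]; exact hz0y.symm
  set α := S.a (L.flip v) (L.em y) with hαd
  have hxi : S.xi v α = L.em y := S.ai_a (L.flip v) _ hyv
  have hα : α ≠ 0 := by
    intro h'
    rw [h', S.xi_zero, hv1] at hxi
    exact h hxi
  obtain ⟨c, hc, H⟩ := S.line_conf A v α hα
  rw [hxi] at H
  set w := S.yy v α with hw
  have hwe : L.em w = L.em y := by rw [hw, S.em_yy, hxi]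
  -- the constant factors
  have n1 : S.ai w 0 ≠ L.em v := S.ai_zero_ne (S.ep_yy v _)
  obtain ⟨r1, hr1, H1⟩ := S.Tc_exists A n1
  have n2 : S.ai w 0 ≠ L.em y := by rw [← hwe]; exact S.ai_ne w 0
  obtain ⟨r2, hr2, H2⟩ := S.Tc_exists A n2
  have n3 : S.ai x 0 ≠ L.em v := by rw [hv1]; exact S.ai_ne x 0
  obtain ⟨r3, hr3, H3⟩ := S.Tc_exists A n3
  obtain ⟨M, b, hM1, hM2⟩ := S.D_aff (x := x) (y := v) hv1.symm
  rw [hM2] at H3
  refine ⟨r2 * r1⁻¹ * c * r3⁻¹, by positivity, fun z hz u => ?_⟩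
  have hzv : S.ai x z ≠ L.em v := by rw [hv1]; exact S.ai_ne x z
  have hz2 : S.ai v (S.tr x v z) = S.ai x z := S.ai_tr hzv
  have hzw : S.ai x z ≠ L.em w := by rw [hwe]; exact hz
  have d1 : S.D x y z = (S.D v y (S.tr x v z)).comp (S.D x v z) := S.D_comp hzv hz
  have hvw : S.ai v (S.tr x v z) ≠ L.em w := by rw [hz2]; exact hzw
  have hvy : S.ai v (S.tr x v z) ≠ L.em y := by rw [hz2]; exact hz
  have d2 : S.D v y (S.tr x v z) = (S.D w y (S.tr v w (S.tr x v z))).comp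
      (S.D v w (S.tr x v z)) := S.D_comp hvw hvy
  have d3 : S.D w y (S.tr v w (S.tr x v z)) = S.D w y 0 := S.D_same hwe _ _
  have hHz := H (S.tr x v z) hvy (M u)
  have hk : S.kp w v = S.D w v 0 := rfl
  rw [hk, H1] at hHz
  have e1 : S.D x y z u = S.D w y 0 (S.D v w (S.tr x v z) (M u)) := by
    rw [d1, d2, d3, hM2]
    rfl
  rw [e1, H2]
  have e2 : ‖S.Tc A v (S.tr x v z) - S.Tc A v (S.a v (L.em y))‖ =
      r3 * ‖S.Tc A x z - S.Tc A x (S.a x (L.em y))‖ := by
    have t1 : S.a v (L.em y) = M (S.a x (L.em y)) + b := by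
      rw [← hM1, S.tr_a h.symm]
    rw [← map_sub, ← map_sub, hM1, t1, add_sub_add_right_eq_sub, ← map_sub]
    exact H3 _
  have e3 : ‖S.Tc A v (M u)‖ = r3 * ‖S.Tc A x u‖ := H3 u
  rw [e2, e3] at hHz
  have hN : ‖S.Tc A x z - S.Tc A x (S.a x (L.em y))‖ ≠ 0 := by
    rw [norm_ne_zero_iff, sub_ne_zero]
    intro h'
    have h2 := (S.Tc A x).injective h'
    apply hz
    rw [h2, S.ai_a x _ h.symm]
  have h5 : ‖S.Tc A w (S.D v w (S.tr x v z) (M u))‖ =
      r1⁻¹ * (c / (r3 * ‖S.Tc A x z - S.Tc A x (S.a x (L.em y))‖) ^ 2 * (r3 * ‖S.Tc A x u‖)) := by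
    rw [← hHz, ← mul_assoc, inv_mul_cancel₀ hr1.ne', one_mul]
  rw [h5]
  field_simp

/-- **the invariant conformal structure** -/
def cf8 : Cf8 S.toAffS A where
  T := S.Tc A
  law := fun _ _ _ hz _ hs h u => S.Tc_law A hz hs h u
  conf := fun _ _ h => S.Tc_conf A h

end conf

end St8

end Vale.Agent.P207.N4.H883
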