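import Vale.Agent.P207.H883.Crv8
import Vale.Agent.P207.N4.H9.FlatM
import Vale.Agent.P207.H799.CEnd

/-!
# P207, all dimensions: the flat charts, from the invariant conformal structure
-/

open Set Filter Topology Metric MeasureTheory
open scoped ContDiff ENNReal

noncomputable section

namespace Vale.Agent.P207.N4.H883

open Vale.Agent.P207.H883.AffCore (exists_root)
open Vale.Agent.P207.H799 (abs_det_of_norm)
open Vale.Agent.P207.N4.H9 (FlatM invZ)

variable [Dim]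

variable {Γ X B : Type} [Group Γ] [MetricSpace X] [ProperSpace X] [MulAction Γ X]
  [IsIsometricSMul Γ X] [TopologicalSpace B] [CompactSpace B] [T2Space B] [MulAction Γ B]
  [ContinuousConstSMul Γ B] [MeasurableSpace B] [BorelSpace B]

variable {L : Leaf Γ X B}

lemma finrank_E2 : Module.finrank ℝ E2 = Dim.m := finrank_euclideanSpace_fin

/-- similarities have the determinant of the factor -/
lemma det_of_norm {D : E2 →L[ℝ] E2} {r : ℝ} (hr : 0 < r) (h : ∀ u, ‖D u‖ = r * ‖u‖) :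
    |D.det| = r ^ Dim.m := by
  have := abs_det_of_norm hr h
  rwa [finrank_E2] at this

/-- determinant of a map which is a similarity for two norms -/
lemma det_of_sim {T T' : E2 ≃L[ℝ] E2} {D : E2 →L[ℝ] E2} {r : ℝ} (hr : 0 < r)
    (h : ∀ u, ‖T' (D u)‖ = r * ‖T u‖) :
    |((T' : E2 →L[ℝ] E2)).det| * |D.det| = r ^ Dim.m * |((T : E2 →L[ℝ] E2)).det| := by
  have h1 : ∀ v, ‖(((T' : E2 →L[ℝ] E2).comp D).comp (T.symm : E2 →L[ℝ] E2)) v‖ = r * ‖v‖ := by
    intro v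
    show ‖T' (D (T.symm v))‖ = _
    rw [h, T.apply_symm_apply]
  have h2 := det_of_norm hr h1
  rw [det_comp', det_comp', abs_mul, abs_mul] at h2
  have h3 : |((T.symm : E2 →L[ℝ] E2)).det| * |((T : E2 →L[ℝ] E2)).det| = 1 := by
    rw [← abs_mul, ← det_comp']
    have : (T.symm : E2 →L[ℝ] E2).comp (T : E2 →L[ℝ] E2) = ContinuousLinearMap.id ℝ E2 := by
      ext v; simp
    rw [this]
    unfold ContinuousLinearMap.det
    rw [ContinuousLinearMap.coe_id, LinearMap.det_id, abs_one]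
  calc _ = (|((T' : E2 →L[ℝ] E2)).det| * |D.det| * |((T.symm : E2 →L[ℝ] E2)).det|) *
        |((T : E2 →L[ℝ] E2)).det| := by
        rw [mul_assoc _ (|((T.symm : E2 →L[ℝ] E2)).det|), h3, mul_one]
    _ = _ := by rw [h2]

lemma det_T_pos (T : E2 ≃L[ℝ] E2) : 0 < |((T : E2 →L[ℝ] E2)).det| := by
  rw [abs_pos]
  exact (LinearEquiv.isUnit_det' T.toLinearEquiv).ne_zero

namespace Cf8

variable {S : AffS L} {A : Area L} (C : Cf8 S A)

/-- the scale: the `m`-th power of `k w` is `s w 0 / (c^m |det T w|)` -/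
lemma exists_k (w : X) : ∃ k : ℝ, 0 < k ∧
    k ^ Dim.m * (S.c ^ Dim.m * |((C.T w : E2 →L[ℝ] E2)).det| / A.s w 0) = 1 := by
  have p1 := A.s_pos w 0 zero_mem3
  have p2 := det_T_pos (C.T w)
  have p3 := S.c_pow_pos
  exact exists_root m_pos (by positivity)

def k (w : X) : ℝ := (C.exists_k w).choose

lemma k_pos (w : X) : 0 < C.k w := (C.exists_k w).choose_spec.1

lemma k_pow (w : X) : C.k w ^ Dim.m *
    (S.c ^ Dim.m * |((C.T w : E2 →L[ℝ] E2)).det|) = A.s w 0 := by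
  have h := (C.exists_k w).choose_spec.2
  have p1 := A.s_pos w 0 zero_mem3
  have h' : C.k w ^ Dim.m *
    (S.c ^ Dim.m * |((C.T w : E2 →L[ℝ] E2)).det| / A.s w 0) = 1 := h
  field_simp at h'
  linarith

/-- the flat chart -/
def Z (w : X) (η : B) : E2 := C.k w • C.T w (S.a w η)

/-- its inverse -/
def Zi (w : X) (v : E2) : B := S.ai w ((C.T w).symm ((C.k w)⁻¹ • v))

lemma Zi_ne (w : X) (v : E2) : C.Zi w v ≠ L.em w := S.ai_ne w _

lemma Z_Zi (w : X) (v : E2) : C.Z w (C.Zi w v) = v := by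
  unfold Z Zi
  rw [S.a_ai, ContinuousLinearEquiv.apply_symm_apply, smul_smul,
    mul_inv_cancel₀ (C.k_pos w).ne', one_smul]

lemma Zi_Z {w : X} {η : B} (h : η ≠ L.em w) : C.Zi w (C.Z w η) = η := by
  unfold Z Zi
  rw [smul_smul, inv_mul_cancel₀ (C.k_pos w).ne', one_smul,
    ContinuousLinearEquiv.symm_apply_apply, S.ai_a w η h]

lemma Z_bij (w : X) : BijOn (C.Z w) {L.em w}ᶜ univ := by
  refine ⟨fun _ _ => mem_univ _, ?_, ?_⟩
  · intro η hη η' hη' h
    have h1 : C.Zi w (C.Z w η) = C.Zi w (C.Z w η') := by rw [h]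
    rwa [C.Zi_Z hη, C.Zi_Z hη'] at h1
  · intro v _
    exact ⟨C.Zi w v, C.Zi_ne w v, C.Z_Zi w v⟩

lemma invZ_eq (w : X) (v : E2) : invZ L C.Z w v = C.Zi w v := by
  have hne : Nonempty B := ⟨L.em w⟩
  have h1 : invZ L C.Z w v ∈ ({L.em w}ᶜ : Set B) :=
    Function.invFunOn_mem ((C.Z_bij w).surjOn (mem_univ v))
  have h2 : C.Z w (invZ L C.Z w v) = v :=
    Function.invFunOn_eq ((C.Z_bij w).surjOn (mem_univ v))
  rw [← C.Zi_Z (η := invZ L C.Z w v) h1, h2]

/-- the relation of the scales of two charts of one leaf -/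
lemma T_same {w w' : X} (h : L.em w = L.em w') :
    ∃ M : E2 ≃L[ℝ] E2, ∃ b : E2, (∀ η, η ≠ L.em w → S.a w' η = M (S.a w η) + b) ∧
      ∃ r > 0, (∀ u, ‖C.T w' (M u)‖ = r * ‖C.T w u‖) ∧
        r ^ Dim.m = |((M : E2 →L[ℝ] E2)).det| ∧ |((M : E2 →L[ℝ] E2)).det| =
          Real.exp (A.h * (L.lv w' - L.lv w)) * (A.s w 0 / A.s w' 0) := by
  obtain ⟨M, b, h1, h2⟩ := S.D_aff h
  have hn : S.ai w 0 ≠ L.em w' := by rw [← h]; exact S.ai_ne w 0
  have hdet := S.det_same A h 0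
  rw [h2] at hdet
  obtain ⟨s, hs, hs1⟩ := exists_root m_pos (det_T_pos M)
  refine ⟨M, b, fun η hη => ?_, s⁻¹, inv_pos.2 hs, fun u => ?_, ?_, hdet⟩
  · rw [← h1, S.tr_a hη]
  · have := C.law w w' 0 hn s hs (by rw [h2]; exact hs1) u
    rwa [h2] at this
  · rw [inv_pow]
    have hsp : s ^ Dim.m ≠ 0 := (pow_pos hs _).ne'
    field_simp
    linarith

lemma Z_leaf (w w' : X) (h : L.em w = L.em w') (hl : L.lv w = L.lv w') (η η' : B)
    (hη : η ≠ L.em w) (hη' : η' ≠ L.em w) :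
    dist (C.Z w η) (C.Z w η') = dist (C.Z w' η) (C.Z w' η') := by
  obtain ⟨M, b, h1, r, hr, h2, h3, h4⟩ := C.T_same h
  rw [hl, sub_self, mul_zero, Real.exp_zero, one_mul] at h4
  have kp := C.k_pos w
  have kp' := C.k_pos w'
  have p1 := A.s_pos w 0 zero_mem3
  have p2 := A.s_pos w' 0 zero_mem3
  have p3 := S.c_pow_pos
  have p4 := det_T_pos (C.T w)
  have p5 := det_T_pos (C.T w')
  have hsim := det_of_sim (T := C.T w) (T' := C.T w') (D := (M : E2 →L[ℝ] E2)) hr h2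
  rw [h3] at hsim
  have hM : 0 < |((M : E2 →L[ℝ] E2)).det| := det_T_pos M
  have hTT : |((C.T w' : E2 →L[ℝ] E2)).det| = |((C.T w : E2 →L[ℝ] E2)).det| := by
    have : |((M : E2 →L[ℝ] E2)).det| * |((C.T w' : E2 →L[ℝ] E2)).det| =
        |((M : E2 →L[ℝ] E2)).det| * |((C.T w : E2 →L[ℝ] E2)).det| := by linarith
    exact mul_left_cancel₀ hM.ne' this
  have e1 := C.k_pow w
  have e2 := C.k_pow w'
  rw [hTT] at e2
  have key : C.k w' * r = C.k w := by
    have hpow : (C.k w' * r) ^ Dim.m = C.k w ^ Dim.m := by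
      rw [mul_pow, h3, h4]
      have hq : 0 < S.c ^ Dim.m * |((C.T w : E2 →L[ℝ] E2)).det| := by positivity
      have : (S.c ^ Dim.m * |((C.T w : E2 →L[ℝ] E2)).det|) *
          (C.k w' ^ Dim.m * (A.s w 0 / A.s w' 0)) =
          (S.c ^ Dim.m * |((C.T w : E2 →L[ℝ] E2)).det|) * C.k w ^ Dim.m := by
        calc _ = (C.k w' ^ Dim.m * (S.c ^ Dim.m * |((C.T w : E2 →L[ℝ] E2)).det|)) *
              (A.s w 0 / A.s w' 0) := by ring
          _ = A.s w 0 := by rw [e2]; field_simp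
          _ = _ := by rw [← e1]; ring
      exact mul_left_cancel₀ hq.ne' this
    exact (pow_left_inj₀ (by positivity) kp.le m_pos.ne').1 hpow
  rw [dist_eq_norm, dist_eq_norm]
  unfold Z
  rw [← smul_sub, ← smul_sub, ← map_sub, ← map_sub, norm_smul, norm_smul,
    Real.norm_of_nonneg kp.le, Real.norm_of_nonneg kp'.le, h1 η hη, h1 η' hη',
    add_sub_add_right_eq_sub, ← map_sub, h2, ← mul_assoc, key]

lemma Z_C1 (w : X) : ContDiffOn ℝ 1 (fun u => C.Z w (L.e w u)) (ball 0 2) := by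
  have h1 := (S.a_C1 w).mono (ball_subset_ball (by norm_num : (2 : ℝ) ≤ 3))
  have h2 : ContDiff ℝ 1 (fun v : E2 => C.k w • C.T w v) := by fun_prop
  exact h2.comp_contDiffOn h1

/-- determinant of a scaled map -/
lemma det_smul' (r : ℝ) (P : E2 →L[ℝ] E2) : (r • P).det = r ^ Dim.m * P.det := by
  unfold ContinuousLinearMap.det
  have : ((r • P : E2 →L[ℝ] E2) : E2 →ₗ[ℝ] E2) = r • (P : E2 →ₗ[ℝ] E2) := rfl
  rw [this, LinearMap.det_smul, finrank_E2]

lemma Z_det (w : X) (u : E2) (hu : u ∈ ball (0 : E2) 2) :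
    |(fderiv ℝ (fun u => C.Z w (L.e w u)) u).det| = 1 * A.s w u := by
  have hu3 : u ∈ ball (0 : E2) 3 := ball_subset_ball (by norm_num) hu
  have h1 := S.hasG w hu3
  have h2 : HasFDerivAt (fun u => C.Z w (L.e w u))
      (C.k w • ((C.T w : E2 →L[ℝ] E2).comp (S.G w u))) u :=
    ((C.T w : E2 →L[ℝ] E2).hasFDerivAt.comp u h1).const_smul (C.k w)
  rw [h2.fderiv, det_smul', det_comp', abs_mul, abs_mul, S.det_e A w hu3,
    abs_of_pos (pow_pos (C.k_pos w) _)]
  have e1 := C.k_pow w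
  have p1 := A.s_pos w 0 zero_mem3
  calc _ = (C.k w ^ Dim.m * (S.c ^ Dim.m * |((C.T w : E2 →L[ℝ] E2)).det|)) *
        (A.s w u / A.s w 0) := by ring
    _ = _ := by rw [e1]; field_simp

lemma Z_conf (w w' : X) (h : L.em w ≠ L.em w') : ∃ c : ℝ, 0 < c ∧ ∀ x, x ≠ C.Z w (L.em w') →
    ∃ P : E2 →L[ℝ] E2, HasFDerivAt (fun x => C.Z w' (invZ L C.Z w x)) P x ∧
      |P.det| = c / ‖x - C.Z w (L.em w')‖ ^ (2 * Dim.m) := by
  obtain ⟨c, hc, H⟩ := C.conf w w' h
  have kp := C.k_pos w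
  have kp' := C.k_pos w'
  refine ⟨(C.k w' * c * C.k w) ^ Dim.m, by positivity, fun x hx => ?_⟩
  set z := (C.T w).symm ((C.k w)⁻¹ • x) with hz
  have hxz : x = C.k w • C.T w z := by
    rw [hz, ContinuousLinearEquiv.apply_symm_apply, smul_smul, mul_inv_cancel₀ kp.ne', one_smul]
  have hzne : S.ai w z ≠ L.em w' := by
    intro h'
    apply hx
    rw [← h', hxz]
    unfold Z
    rw [S.a_ai]
  set Lw : E2 →L[ℝ] E2 := ((C.T w).symm : E2 →L[ℝ] E2).comp
    ((C.k w)⁻¹ • ContinuousLinearMap.id ℝ E2) with hLw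
  have h1 : HasFDerivAt (fun x : E2 => (C.T w).symm ((C.k w)⁻¹ • x)) Lw x := Lw.hasFDerivAt
  have h2 : HasFDerivAt (S.tr w w') (S.D w w' z) z := S.hasD hzne
  have h3 : HasFDerivAt (fun v : E2 => C.k w' • C.T w' v)
      (C.k w' • (C.T w' : E2 →L[ℝ] E2)) (S.tr w w' z) :=
    (C.k w' • (C.T w' : E2 →L[ℝ] E2)).hasFDerivAt
  have h4 := h3.comp x (h2.comp x h1)
  refine ⟨_, h4.congr_of_eventuallyEq (Eventually.of_forall fun v => ?_), ?_⟩
  · show C.Z w' (invZ L C.Z w v) = _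
    rw [C.invZ_eq]
    rfl
  · have hN : 0 < ‖x - C.Z w (L.em w')‖ := norm_pos_iff.2 (sub_ne_zero.2 hx)
    have hd : ‖C.T w z - C.T w (S.a w (L.em w'))‖ = (C.k w)⁻¹ * ‖x - C.Z w (L.em w')‖ := by
      have : x - C.Z w (L.em w') = C.k w • (C.T w z - C.T w (S.a w (L.em w'))) := by
        rw [smul_sub, ← hxz]; rfl
      rw [this, norm_smul, Real.norm_of_nonneg kp.le, ← mul_assoc, inv_mul_cancel₀ kp.ne',
        one_mul]
    have hnorm : ∀ v, ‖((C.k w' • (C.T w' : E2 →L[ℝ] E2)).comp ((S.D w w' z).comp Lw)) v‖ =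
        (C.k w' * c * C.k w / ‖x - C.Z w (L.em w')‖ ^ 2) * ‖v‖ := by
      intro v
      show ‖C.k w' • C.T w' (S.D w w' z ((C.T w).symm ((C.k w)⁻¹ • v)))‖ = _
      rw [norm_smul, Real.norm_of_nonneg kp'.le, H z hzne, hd,
        ContinuousLinearEquiv.apply_symm_apply, norm_smul, norm_inv,
        Real.norm_of_nonneg kp.le]
      field_simp
    have h5 := det_of_norm (by positivity) hnorm
    rw [h5, div_pow, ← pow_mul]

/-- **the flat charts** -/
def flatM : FlatM L A where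
  Z := C.Z
  Z_bij := C.Z_bij
  Z_leaf := C.Z_leaf
  Z_C1 := C.Z_C1
  c₀ := 1
  c₀_pos := one_pos
  Z_det := C.Z_det
  conf := C.Z_conf

end Cf8

/-- **step 8**: the flat charts from the quadratic field -/
def St8.flatM (S : St8 L) (A : Area L) : FlatM L A := (S.cf8 A).flatM

end Vale.Agent.P207.N4.H883
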