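import Vale.Agent.P207.H883.St8
import Vale.Agent.P207.N4.H646.TauB
import Vale.Agent.P207.N4.H662.Bas

/-!
# P207, all dimensions: Margulis areas in the affine charts

`det_e`: the area has constant density in the affine charts. `det_same`: determinant of the affine
change of charts of one leaf.
-/

open Set Filter Topology Metric MeasureTheory
open scoped ContDiff ENNReal

noncomputable section

namespace Vale.Agent.P207.N4.H883

open Vale.Agent.P207.N4.H646 (pm pm_mem pm_small mem_dm_back e_pm pm_zero φ_back em_back)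

variable [Dim]

variable {Γ X B : Type} [Group Γ] [MetricSpace X] [ProperSpace X] [MulAction Γ X]
  [IsIsometricSMul Γ X] [TopologicalSpace B] [CompactSpace B] [T2Space B] [MulAction Γ B]
  [ContinuousConstSMul Γ B]

variable {L : Leaf Γ X B}

lemma zero_mem3 : (0 : E2) ∈ ball (0 : E2) 3 := mem_ball_self (by norm_num)

lemma e_ne_em (x : X) {u : E2} (hu : u ∈ ball (0 : E2) 3) : L.e x u ≠ L.em x :=
  L.e_ne x u (ball_subset_closedBall hu)

lemma det_comp' (P Q : E2 →L[ℝ] E2) : (P.comp Q).det = P.det * Q.det := by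
  unfold ContinuousLinearMap.det
  exact LinearMap.det_comp _ _

namespace AffS

variable (S : AffS L)

/-- the affine chart in the chart `e x` -/
def G (x : X) (u : E2) : E2 →L[ℝ] E2 := fderiv ℝ (fun u => S.a x (L.e x u)) u

lemma hasG (x : X) {u : E2} (hu : u ∈ ball (0 : E2) 3) :
    HasFDerivAt (fun u => S.a x (L.e x u)) (S.G x u) u :=
  (((S.a_C1 x).contDiffAt (isOpen_ball.mem_nhds hu)).differentiableAt one_ne_zero).hasFDerivAt

lemma G_smul (g : Γ) (x : X) {u : E2} (hu : u ∈ ball (0 : E2) 3) : S.G (g • x) u = S.G x u := by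
  have : (fun u => S.a (g • x) (L.e (g • x) u)) =ᶠ[𝓝 u] fun u => S.a x (L.e x u) := by
    filter_upwards [isOpen_ball.mem_nhds hu] with v hv
    rw [L.e_smul g x v (ball_subset_closedBall hv), S.a_smul g x _ (e_ne_em x hv)]
  exact this.fderiv_eq

lemma G_zero_det (x : X) : |(S.G x 0).det| = S.c ^ Dim.m := by
  have h : S.G x 0 = S.c • ContinuousLinearMap.id ℝ E2 := S.a_d x
  rw [h]
  unfold ContinuousLinearMap.det
  have e : ((S.c • ContinuousLinearMap.id ℝ E2 : E2 →L[ℝ] E2) : E2 →ₗ[ℝ] E2)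
      = S.c • LinearMap.id := rfl
  rw [e, LinearMap.det_smul, LinearMap.det_id, mul_one, finrank_euclideanSpace_fin,
    abs_of_pos (pow_pos S.c_pos _)]

lemma c_pow_pos : 0 < S.c ^ Dim.m := pow_pos S.c_pos _

/-- the chart of the leaf of `w` in the disc of `x` -/
lemma hasG_of {x w : X} (h : L.em x = L.em w) (z : E2) {u : E2} (hu : u ∈ ball (0 : E2) 3) :
    HasFDerivAt (fun u => S.a w (L.e x u)) ((S.D x w z).comp (S.G x u)) u := by
  obtain ⟨M, b, h1, h2⟩ := S.D_aff h
  rw [h2 z]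
  have h3 : HasFDerivAt (fun v : E2 => M v + b) (M : E2 →L[ℝ] E2) (S.a x (L.e x u)) :=
    (M.hasFDerivAt).add_const b
  have h4 := h3.comp u (S.hasG x hu)
  refine h4.congr_of_eventuallyEq ?_
  filter_upwards [isOpen_ball.mem_nhds hu] with v hv
  show S.a w (L.e x v) = M (S.a x (L.e x v)) + b
  rw [← h1, S.tr_a (e_ne_em x hv)]

section area

variable [MeasurableSpace B] [BorelSpace B] (A : Area L)

/-- relation of the densities at two times -/
lemma ratio_t {t : ℝ} (ht : L.t1 ≤ t) (x : X) {u : E2} (hu : u ∈ ball (0 : E2) 3) :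
    |(S.G x u).det| * A.s (L.φ (-t) x) (pm L t x u) * Real.exp (A.h * t)
      = |(S.D (L.φ (-t) x) x 0).det| * |(S.G (L.φ (-t) x) (pm L t x u)).det| * A.s x u := by
  set z := L.φ (-t) x with hz
  have hem : L.em z = L.em x := by rw [hz, L.em_φ]
  have hpm := pm_mem L ht x hu
  have hpm3 : pm L t x u ∈ ball (0 : E2) 3 := ball_subset_ball (by norm_num) hpm
  have hd := mem_dm_back L ht x hu
  have h1 := S.hasG_of hem 0 hpm3
  have h2 : HasFDerivAt (pm L t x) (fderiv ℝ (pm L t x) u) u :=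
    H646.tau_hasFDerivAt L (em_back L t x) hd
  have h3 := h1.comp u h2
  have h4 : HasFDerivAt (fun v => S.a x (L.e x v))
      (((S.D z x 0).comp (S.G z (pm L t x u))).comp (fderiv ℝ (pm L t x) u)) u := by
    refine h3.congr_of_eventuallyEq ?_
    filter_upwards [isOpen_ball.mem_nhds hu] with v hv
    show _ = S.a x (L.e z (pm L t x v))
    rw [e_pm L ht x hv]
  have h5 := (S.hasG x hu).unique h4
  rw [h5, det_comp', det_comp', abs_mul, abs_mul]
  have h6 := A.s_trans x z hem.symm u hd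
  have h7 : L.lv x - L.lv z = t := by rw [hz, L.lv_φ]; ring
  rw [h7] at h6
  have h8 : L.τ x z u = pm L t x u := rfl
  have h9 : fderiv ℝ (L.τ x z) u = fderiv ℝ (pm L t x) u := rfl
  rw [h8, h9] at h6
  rw [h6]
  ring

lemma ratio_0 {t : ℝ} (ht : L.t1 ≤ t) (x : X) {u : E2} (hu : u ∈ ball (0 : E2) 3) :
    |(S.G x u).det| * A.s (L.φ (-t) x) (pm L t x u) * A.s x 0
      = A.s (L.φ (-t) x) 0 * |(S.G (L.φ (-t) x) (pm L t x u)).det| * A.s x u := by
  have h1 := S.ratio_t A ht x hu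
  have h2 := S.ratio_t A ht x zero_mem3
  rw [pm_zero, S.G_zero_det, S.G_zero_det] at h2
  have hc := S.c_pow_pos
  have h3 : A.s (L.φ (-t) x) 0 * Real.exp (A.h * t)
      = |(S.D (L.φ (-t) x) x 0).det| * A.s x 0 := by
    have : S.c ^ Dim.m * (A.s (L.φ (-t) x) 0 * Real.exp (A.h * t))
        = S.c ^ Dim.m * (|(S.D (L.φ (-t) x) x 0).det| * A.s x 0) := by linarith
    exact mul_left_cancel₀ hc.ne' this
  have hE : Real.exp (A.h * t) ≠ 0 := (Real.exp_pos _).ne'
  refine mul_right_cancel₀ hE ?_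
  calc _ = (|(S.G x u).det| * A.s (L.φ (-t) x) (pm L t x u) * Real.exp (A.h * t)) * A.s x 0 := by
        ring
    _ = (|(S.D (L.φ (-t) x) x 0).det| * A.s x 0) * |(S.G (L.φ (-t) x) (pm L t x u)).det|
        * A.s x u := by rw [h1]; ring
    _ = _ := by rw [← h3]; ring

/-- **the area has constant density in the affine charts** -/
theorem det_e (x : X) {u : E2} (hu : u ∈ ball (0 : E2) 3) :
    |(S.G x u).det| = S.c ^ Dim.m / A.s x 0 * A.s x u := by
  obtain ⟨K, hK, hcov⟩ := L.cocompact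
  choose g hg using hcov
  set U : Ultrafilter ℝ := Ultrafilter.of atTop with hU
  have hUt : (U : Filter ℝ) ≤ atTop := Ultrafilter.of_le _
  obtain ⟨z0, -, hz0⟩ : ∃ z ∈ K, Tendsto (fun t : ℝ => g (L.φ (-t) x) • L.φ (-t) x) U (𝓝 z) := by
    refine hK.ultrafilter_le_nhds (U.map fun t : ℝ => g (L.φ (-t) x) • L.φ (-t) x) ?_
    rw [le_principal_iff]
    have h : ∀ᶠ t in (U : Filter ℝ), g (L.φ (-t) x) • L.φ (-t) x ∈ K :=
      Eventually.of_forall fun t => hg _
    exact h
  have hpm : Tendsto (fun t : ℝ => pm L t x u) U (𝓝 0) := by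
    obtain ⟨C, hC, h⟩ := pm_small L
    have h1 : Tendsto (fun t : ℝ => C * Real.exp (-L.χ * t)) atTop (𝓝 0) := by
      have h2 : Tendsto (fun t : ℝ => Real.exp (-(L.χ * t))) atTop (𝓝 0) :=
        Real.tendsto_exp_neg_atTop_nhds_zero.comp (Tendsto.const_mul_atTop L.χ_pos tendsto_id)
      have h3 := h2.const_mul C
      rw [mul_zero] at h3
      refine h3.congr fun t => ?_
      rw [neg_mul]
    refine squeeze_zero_norm' ?_ (h1.mono_left hUt)
    filter_upwards [hUt (eventually_ge_atTop L.t1)] with t ht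
    exact h x t ht u hu
  have hp : Tendsto (fun t : ℝ => (g (L.φ (-t) x) • L.φ (-t) x, pm L t x u)) U (𝓝 (z0, 0)) :=
    hz0.prodMk_nhds hpm
  have hp0 : Tendsto (fun t : ℝ => (g (L.φ (-t) x) • L.φ (-t) x, (0 : E2))) U (𝓝 (z0, 0)) :=
    hz0.prodMk_nhds tendsto_const_nhds
  have hN : (univ : Set X) ×ˢ ball (0 : E2) 3 ∈ 𝓝 (z0, (0 : E2)) :=
    (isOpen_univ.prod isOpen_ball).mem_nhds ⟨mem_univ _, zero_mem3⟩
  have hs : ContinuousAt (fun p : X × E2 => A.s p.1 p.2) (z0, 0) := by
    have h1 := ((A.s_cont 0).continuousAt hN).norm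
    have h2 : ContinuousAt (fun p : X × E2 => |A.s p.1 p.2|) (z0, 0) := by
      refine h1.congr ?_
      filter_upwards with p
      rw [norm_iteratedFDeriv_zero, Real.norm_eq_abs]
    refine h2.congr ?_
    filter_upwards [hN] with p hp
    exact abs_of_pos (A.s_pos p.1 p.2 hp.2)
  have hGc : ContinuousAt (fun p : X × E2 => |(S.G p.1 p.2).det|) (z0, 0) := by
    have h1 : ContinuousAt (fun p : X × E2 => S.G p.1 p.2) (z0, 0) := S.a_dcont.continuousAt hN
    exact (ContinuousLinearMap.continuous_det.continuousAt.comp h1).abs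
  have l1 : Tendsto (fun t : ℝ => A.s (L.φ (-t) x) (pm L t x u)) U (𝓝 (A.s z0 0)) := by
    refine (hs.tendsto.comp hp).congr' ?_
    filter_upwards [hUt (eventually_ge_atTop L.t1)] with t ht
    exact A.s_smul _ _ _ (ball_subset_ball (by norm_num) (pm_mem L ht x hu))
  have l2 : Tendsto (fun t : ℝ => A.s (L.φ (-t) x) 0) U (𝓝 (A.s z0 0)) := by
    refine (hs.tendsto.comp hp0).congr' ?_
    filter_upwards with t
    exact A.s_smul _ _ _ zero_mem3
  have l3 : Tendsto (fun t : ℝ => |(S.G (L.φ (-t) x) (pm L t x u)).det|) U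
      (𝓝 (S.c ^ Dim.m)) := by
    rw [← S.G_zero_det z0]
    refine (hGc.tendsto.comp hp).congr' ?_
    filter_upwards [hUt (eventually_ge_atTop L.t1)] with t ht
    show |(S.G (g (L.φ (-t) x) • L.φ (-t) x) (pm L t x u)).det| = _
    rw [S.G_smul _ _ (ball_subset_ball (by norm_num) (pm_mem L ht x hu))]
  have e1 := (l1.const_mul |(S.G x u).det|).mul_const (A.s x 0)
  have e2 := (l2.mul l3).mul_const (A.s x u)
  have e3 : |(S.G x u).det| * A.s z0 0 * A.s x 0 = A.s z0 0 * S.c ^ Dim.m * A.s x u := by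
    refine tendsto_nhds_unique e1 (e2.congr' ?_)
    filter_upwards [hUt (eventually_ge_atTop L.t1)] with t ht
    exact (S.ratio_0 A ht x hu).symm
  have p1 := A.s_pos z0 0 zero_mem3
  have p2 := A.s_pos x 0 zero_mem3
  rw [div_mul_eq_mul_div, eq_div_iff p2.ne']
  refine mul_left_cancel₀ p1.ne' ?_
  linarith

/-- the determinant of the affine change, special case -/
lemma det_same_aux {x w : X} (h : L.em x = L.em w) (h0 : (0 : E2) ∈ L.dm x w) (z : E2) :
    |(S.D x w z).det| = Real.exp (A.h * (L.lv w - L.lv x)) * (A.s x 0 / A.s w 0) := by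
  have hτ : L.τ x w 0 ∈ ball (0 : E2) 3 := H646.tau_mem L h0
  have h1 := S.hasG_of h z zero_mem3
  have h2 : HasFDerivAt (L.τ x w) (fderiv ℝ (L.τ x w) 0) 0 := H646.tau_hasFDerivAt L h h0
  have h3 := (S.hasG w hτ).comp 0 h2
  have h4 : HasFDerivAt (fun u => S.a w (L.e x u))
      ((S.G w (L.τ x w 0)).comp (fderiv ℝ (L.τ x w) 0)) 0 := by
    refine h3.congr_of_eventuallyEq ?_
    filter_upwards [(H662.dm_open L x w).mem_nhds h0] with v hv
    show _ = S.a w (L.e w (L.τ x w v))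
    rw [H662.e_tau L hv]
  have h5 := congrArg (fun T : E2 →L[ℝ] E2 => |T.det|) (h1.unique h4)
  simp only [det_comp', abs_mul] at h5
  rw [S.G_zero_det, S.det_e A w hτ] at h5
  have h6 := A.s_trans x w h 0 h0
  have p1 := A.s_pos w 0 zero_mem3
  have p3 := A.s_pos w _ hτ
  have hc := S.c_pow_pos
  have h7 : |(S.D x w z).det| * A.s w 0 = A.s w (L.τ x w 0) * |(fderiv ℝ (L.τ x w) 0).det| := by
    have : S.c ^ Dim.m * (|(S.D x w z).det| * A.s w 0)
        = S.c ^ Dim.m * (A.s w (L.τ x w 0) * |(fderiv ℝ (L.τ x w) 0).det|) := by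
      calc _ = (|(S.D x w z).det| * S.c ^ Dim.m) * A.s w 0 := by ring
        _ = _ := by rw [h5]; field_simp
    exact mul_left_cancel₀ hc.ne' this
  rw [mul_div_assoc', eq_div_iff p1.ne', h7, h6]
  have e1 : Real.exp (A.h * (L.lv w - L.lv x)) * Real.exp (A.h * (L.lv x - L.lv w)) = 1 := by
    rw [← Real.exp_add, ← Real.exp_zero]
    congr 1
    ring
  calc _ = (Real.exp (A.h * (L.lv w - L.lv x)) * Real.exp (A.h * (L.lv x - L.lv w))) *
      (A.s w (L.τ x w 0) * |(fderiv ℝ (L.τ x w) 0).det|) := by rw [e1, one_mul]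
    _ = _ := by ring

/-- **the determinant of the affine change of charts of one leaf** -/
theorem det_same {x y : X} (h : L.em x = L.em y) (z : E2) :
    |(S.D x y z).det| = Real.exp (A.h * (L.lv y - L.lv x)) * (A.s x 0 / A.s y 0) := by
  obtain ⟨c1, hc1⟩ := H662.exhaust L (x := x) (η := L.ep y) (by rw [h]; exact (L.em_ne_ep y).symm)
  set w := L.φ (-c1) x with hw
  have hxw : L.em x = L.em w := by rw [hw, L.em_φ]
  have hyw : L.em y = L.em w := by rw [← h, hxw]
  have m1 : (0 : E2) ∈ L.dm x w := by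
    refine ⟨zero_mem3, 0, zero_mem3, ?_⟩
    rw [L.e_zero, L.e_zero, hw, L.ep_flip, L.flip_φ, L.em_φ, ← L.ep_flip]
  have m2 : (0 : E2) ∈ L.dm y w := by
    refine ⟨zero_mem3, ?_⟩
    rw [L.e_zero]
    exact image_mono (ball_subset_ball (by norm_num)) (hc1 c1 le_rfl)
  have n1 : S.ai x z ≠ L.em y := by rw [← h]; exact S.ai_ne x z
  have n2 : S.ai x z ≠ L.em w := by rw [← hxw]; exact S.ai_ne x z
  have h1 := S.D_comp n1 n2
  have h2 := congrArg (fun T : E2 →L[ℝ] E2 => |T.det|) h1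
  simp only [det_comp', abs_mul] at h2
  rw [S.det_same_aux A hxw m1 z, S.det_same_aux A hyw m2] at h2
  have p1 := A.s_pos w 0 zero_mem3
  have p2 := A.s_pos x 0 zero_mem3
  have p3 := A.s_pos y 0 zero_mem3
  have hE := Real.exp_pos (A.h * (L.lv w - L.lv y))
  have h3 : Real.exp (A.h * (L.lv w - L.lv x)) = Real.exp (A.h * (L.lv w - L.lv y)) *
      Real.exp (A.h * (L.lv y - L.lv x)) := by
    rw [← Real.exp_add]
    congr 1
    ring
  rw [h3] at h2
  field_simp at h2 ⊢
  linarith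

end area

end AffS

end Vale.Agent.P207.N4.H883
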