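import Vale.Agent.P207.H883.Jac8
import Vale.Agent.P207.N4.H9.NuA

/-!
# P207, all dimensions: the visual measure in the affine charts, Jacobians of the holonomies
-/

open Set Filter Topology Metric MeasureTheory
open scoped ContDiff ENNReal

noncomputable section

namespace Vale.Agent.P207.N4.H883

open Vale.Agent.P207.N4.H9 (D_contAt isOpen_img e_contOn ep_cont)

variable [Dim]

variable {Γ X B : Type} [Group Γ] [MetricSpace X] [ProperSpace X] [MulAction Γ X]
  [IsIsometricSMul Γ X] [TopologicalSpace B] [CompactSpace B] [T2Space B] [MulAction Γ B]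
  [ContinuousConstSMul Γ B] [MeasurableSpace B] [BorelSpace B]

variable {L : Leaf Γ X B}

namespace AffS

variable (S : AffS L) (A : Area L)

/-- the scale of the area in the affine chart -/
def Kc (w : X) : ℝ := Real.exp (-A.h * L.lv w) * A.s w 0 / S.c ^ Dim.m

lemma Kc_pos (w : X) : 0 < S.Kc A w := by
  have p1 := A.s_pos w 0 zero_mem3
  have := S.c_pow_pos
  unfold Kc
  positivity

lemma ai_inj (w : X) : Function.Injective (S.ai w) := fun a b h => by
  rw [← S.a_ai w a, h, S.a_ai]

lemma a_contAt {w : X} {η : B} (h : η ≠ L.em w) : ContinuousAt (S.a w) η :=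
  ((S.a_cont' w) η h).continuousAt (isOpen_ne.mem_nhds h)

lemma ai_openEmbedding (w : X) : IsOpenEmbedding (S.ai w) := by
  refine .of_continuous_injective_isOpenMap (S.ai_cont' w) (S.ai_inj w) ?_
  intro O hO
  have he : S.ai w '' O = {L.em w}ᶜ ∩ S.a w ⁻¹' O := by
    ext η
    constructor
    · rintro ⟨z, hz, rfl⟩
      exact ⟨S.ai_ne w z, by rw [mem_preimage, S.a_ai]; exact hz⟩
    · rintro ⟨h1, h2⟩
      exact ⟨S.a w η, h2, S.ai_a w η h1⟩
  rw [he]
  have hcont : ContinuousOn (S.a w) {L.em w}ᶜ := fun η hη => (S.a_contAt hη).continuousWithinAt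
  exact hcont.isOpen_inter_preimage isOpen_compl_singleton hO

open Classical in
lemma key {w x : X} (h : L.em x = L.em w) {Q : Set E2}
    (hQ : MeasurableSet Q) (hQx : ∀ z ∈ Q, S.ai w z ∈ L.e x '' ball 0 2) :
    ∫⁻ η in S.ai w '' Q, ENNReal.ofReal (Real.exp (-A.h * A.D (L.em w) η)) ∂A.ν =
      ENNReal.ofReal (S.Kc A w) * volume Q := by
  set g : E2 → E2 := fun u => S.a w (L.e x u) with hg
  have hb3 : ball (0 : E2) 2 ⊆ ball 0 3 := ball_subset_ball (by norm_num)
  have hne : ∀ u ∈ ball (0 : E2) 2, L.e x u ≠ L.em w := by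
    intro u hu
    rw [← h]
    exact e_ne_em x (hb3 hu)
  have hgd : ∀ u ∈ ball (0 : E2) 2, HasFDerivAt g ((S.D x w 0).comp (S.G x u)) u :=
    fun u hu => S.hasG_of h 0 (hb3 hu)
  have hgc : ContinuousOn g (ball 0 2) := fun u hu => (hgd u hu).continuousAt.continuousWithinAt
  set V : Set E2 := ball 0 2 ∩ g ⁻¹' Q with hV
  have hVm : MeasurableSet V := by
    have h1 : Measurable ((ball (0 : E2) 2).piecewise g (fun _ => 0)) :=
      hgc.measurable_piecewise continuousOn_const measurableSet_ball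
    have h2 : V = ball 0 2 ∩ ((ball (0 : E2) 2).piecewise g (fun _ => 0)) ⁻¹' Q := by
      ext u
      constructor
      · rintro ⟨h1, h2⟩
        refine ⟨h1, ?_⟩
        rw [mem_preimage, piecewise_eq_of_mem _ _ _ h1]
        exact h2
      · rintro ⟨h1, h2⟩
        refine ⟨h1, ?_⟩
        rw [mem_preimage, piecewise_eq_of_mem _ _ _ h1] at h2
        exact h2
    rw [h2]
    exact measurableSet_ball.inter (h1 hQ)
  have hV2 : V ⊆ ball 0 2 := inter_subset_left
  have hV3 : V ⊆ ball 0 3 := hV2.trans hb3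
  have himg : L.e x '' V = S.ai w '' Q := by
    ext η
    constructor
    · rintro ⟨u, ⟨hu, huS⟩, rfl⟩
      exact ⟨_, huS, S.ai_a w _ (hne u hu)⟩
    · rintro ⟨z, hz, rfl⟩
      obtain ⟨u, hu, hu'⟩ := hQx z hz
      refine ⟨u, ⟨hu, ?_⟩, hu'⟩
      show S.a w (L.e x u) ∈ Q
      rw [hu', S.a_ai]
      exact hz
  have h1 := A.ν_chart x V hVm hV3
  rw [himg, h] at h1
  rw [← h1]
  have hgV : g '' V = Q := by
    have : g '' V = S.a w '' (L.e x '' V) := by rw [image_image]
    rw [this, himg, image_image]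
    simp only [S.a_ai, image_id']
  have hinj : InjOn g V := by
    intro u hu v hv huv
    have h1 := hne u (hV2 hu)
    have h2 := hne v (hV2 hv)
    have h3 : L.e x u = L.e x v := by
      have h4 : S.a w (L.e x u) = S.a w (L.e x v) := huv
      rw [← S.ai_a w _ h1, h4, S.ai_a w _ h2]
    exact L.e_inj x (ball_subset_closedBall (hV3 hu)) (ball_subset_closedBall (hV3 hv)) h3
  have h2 := lintegral_abs_det_fderiv_eq_addHaar_image (volume : Measure E2) hVm
    (fun u hu => (hgd u (hV2 hu)).hasFDerivWithinAt) hinj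
  rw [hgV] at h2
  rw [← h2, ← lintegral_const_mul' _ _ ENNReal.ofReal_ne_top]
  refine setLIntegral_congr_fun hVm (fun u hu => ?_)
  show ENNReal.ofReal (Real.exp (-A.h * L.lv x) * A.s x u) = ENNReal.ofReal (S.Kc A w) *
    ENNReal.ofReal |((S.D x w 0).comp (S.G x u)).det|
  rw [← ENNReal.ofReal_mul (S.Kc_pos A w).le]
  congr 1
  rw [det_comp', abs_mul, S.det_same A h, S.det_e A x (hV3 hu), Kc]
  have p1 := A.s_pos w 0 zero_mem3
  have p2 := A.s_pos x 0 zero_mem3
  have hc := S.c_pow_pos
  have e1 : Real.exp (-A.h * L.lv x) = Real.exp (-A.h * L.lv w) *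
      Real.exp (A.h * (L.lv w - L.lv x)) := by
    rw [← Real.exp_add]
    congr 1
    ring
  rw [e1]
  field_simp

/-- the density of the visual measure in the affine chart -/
def dens (w : X) (z : E2) : ℝ := Real.exp (A.h * A.D (L.em w) (S.ai w z)) * S.Kc A w

lemma dens_pos (w : X) (z : E2) : 0 < S.dens A w z := mul_pos (Real.exp_pos _) (S.Kc_pos A w)

lemma D_ai_cont (w : X) : Continuous fun z => A.D (L.em w) (S.ai w z) :=
  continuous_iff_continuousAt.mpr (fun z =>
    (D_contAt A (S.ai_ne w z)).tendsto.comp ((S.ai_cont' w).tendsto z))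

lemma dens_cont (w : X) : Continuous (S.dens A w) := by
  have := S.D_ai_cont A w
  unfold dens
  fun_prop

/-- **the visual measure in the affine chart** -/
theorem nu_comap (w : X) :
    A.ν.comap (S.ai w) = volume.withDensity fun z => ENNReal.ofReal (S.dens A w z) := by
  have hemb : MeasurableEmbedding (S.ai w) := (S.ai_openEmbedding w).measurableEmbedding
  have hDc := S.D_ai_cont A w
  set g : B → ℝ≥0∞ := fun η => ENNReal.ofReal (Real.exp (-A.h * A.D (L.em w) η)) with hg
  set m0 : Measure E2 := A.ν.comap (S.ai w) with hm0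
  set gg : E2 → ℝ≥0∞ := fun z => g (S.ai w z) with hgg
  have hggm : Measurable gg :=
    ENNReal.measurable_ofReal.comp (Real.continuous_exp.comp (continuous_const.mul hDc)).measurable
  have hset : ∀ Q : Set E2, ∫⁻ z in Q, gg z ∂m0 = ∫⁻ η in S.ai w '' Q, g η ∂A.ν := by
    intro Q
    have h1 := hemb.restrict_map m0 (S.ai w '' Q)
    rw [preimage_image_eq _ hemb.injective, hm0, hemb.map_comap,
      Measure.restrict_restrict_of_subset (image_subset_range _ _)] at h1
    rw [h1, hemb.lintegral_map]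
  have hmm : m0.withDensity gg = ENNReal.ofReal (S.Kc A w) • (volume : Measure E2) := by
    have hxz : ∀ z : E2, ∃ x : X, L.em x = L.em w ∧ L.ep x = S.ai w z ∧ L.lv x = L.lv w :=
      fun z => L.exists_frame _ _ (S.ai_ne w z).symm _
    choose xz hx1 hx2 hx3 using hxz
    set O : E2 → Set E2 := fun z => S.ai w ⁻¹' (L.e (xz z) '' ball 0 2) with hO
    have hOo : ∀ z, IsOpen (O z) := fun z => (isOpen_img L (xz z) isOpen_ball
        (ball_subset_ball (by norm_num))).preimage (S.ai_cont' w)
    have hOn : ∀ z, O z ∈ 𝓝 z := by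
      intro z
      refine (hOo z).mem_nhds ⟨0, mem_ball_self (by norm_num), ?_⟩
      rw [L.e_zero, hx2]
    obtain ⟨t, htc, htu⟩ := TopologicalSpace.countable_cover_nhds hOn
    rw [Measure.ext_iff_of_biUnion_eq_univ htc htu]
    intro z _
    ext Q hQ
    have hOm : MeasurableSet (O z) := (hOo z).measurableSet
    rw [Measure.restrict_apply hQ, Measure.restrict_apply hQ, withDensity_apply _ (hQ.inter hOm),
      hset, S.key A (hx1 z) (hQ.inter hOm) (fun v hv => hv.2)]
    simp
  have hne0 : ∀ z, gg z ≠ 0 := fun z => by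
    rw [hgg, hg]
    simp only [ne_eq, ENNReal.ofReal_eq_zero, not_le]
    exact Real.exp_pos _
  have hnet : ∀ z, gg z ≠ ⊤ := fun z => ENNReal.ofReal_ne_top
  have e1 : m0 = (m0.withDensity gg).withDensity (fun z => (gg z)⁻¹) :=
    (withDensity_inv_same hggm (ae_of_all _ hne0) (ae_of_all _ hnet)).symm
  have hgi : Measurable fun z => (gg z)⁻¹ := hggm.inv
  rw [e1, hmm, withDensity_smul_measure, ← withDensity_smul _ hgi]
  congr 1
  ext z
  show ENNReal.ofReal (S.Kc A w) * (gg z)⁻¹ = _
  rw [hgg, hg]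
  simp only
  have hK := S.Kc_pos A w
  rw [← ENNReal.ofReal_inv_of_pos (Real.exp_pos _), ← ENNReal.ofReal_mul hK.le]
  congr 1
  unfold dens
  rw [← Real.exp_neg, mul_comm]
  congr 2
  ring

/-- the measure of a set of the leaf -/
theorem nu_image (w : X) {Q : Set E2} (hQ : MeasurableSet Q) :
    A.ν (S.ai w '' Q) = ∫⁻ z in Q, ENNReal.ofReal (S.dens A w z) := by
  have hemb : MeasurableEmbedding (S.ai w) := (S.ai_openEmbedding w).measurableEmbedding
  rw [← withDensity_apply _ hQ, ← S.nu_comap A w, hemb.comap_apply]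

lemma tr_inj (x y : X) : InjOn (S.tr x y) {z | S.ai x z ≠ L.em y} := by
  intro a ha b hb hab
  have h1 : S.ai y (S.tr x y a) = S.ai y (S.tr x y b) := by rw [hab]
  rw [S.ai_tr ha, S.ai_tr hb] at h1
  exact S.ai_inj x h1

lemma D_contAt' {x y : X} {z : E2} (h : S.ai x z ≠ L.em y) : ContinuousAt (S.D x y) z := by
  by_cases he : L.em x = L.em y
  · obtain ⟨M, b, h1, h2⟩ := S.D_aff he
    have : S.D x y = fun _ => (M : E2 →L[ℝ] E2) := funext h2
    rw [this]
    exact continuousAt_const
  · have h1 := S.hol_C1 x y he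
    have h2 := h1.continuousOn_fderiv_of_isOpen isOpen_compl_singleton le_rfl
    refine h2.continuousAt (isOpen_compl_singleton.mem_nhds ?_)
    intro hz
    have hz' : z = S.a x (L.em y) := hz
    apply h
    rw [hz']
    exact S.ai_a x _ (fun h' => he h'.symm)

/-- **the Jacobian of the transition** -/
theorem det_tr {x y : X} {z : E2} (hz : S.ai x z ≠ L.em y) :
    |(S.D x y z).det| = S.dens A x z / S.dens A y (S.tr x y z) := by
  set O : Set E2 := {z | S.ai x z ≠ L.em y} with hO
  have hOo : IsOpen O := S.isOpen_ne' x y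
  have hP : ∀ z ∈ O, HasFDerivAt (S.tr x y) (S.D x y z) z := fun z hz => S.hasD hz
  set f1 : E2 → ℝ≥0∞ := fun z => ENNReal.ofReal (S.dens A x z) with hf1
  set f2 : E2 → ℝ≥0∞ := fun z => ENNReal.ofReal |(S.D x y z).det| *
    ENNReal.ofReal (S.dens A y (S.tr x y z)) with hf2
  have htc : ContinuousOn (S.tr x y) O := fun z hz => (hP z hz).continuousAt.continuousWithinAt
  have hcc : ContinuousOn (fun z : E2 => |(S.D x y z).det|) O := by
    intro z hz
    have h1 : ContinuousAt (S.D x y) z := S.D_contAt' hz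
    exact ((ContinuousLinearMap.continuous_det.continuousAt.comp h1).abs).continuousWithinAt
  have hf1c : ContinuousOn f1 O :=
    (ENNReal.continuous_ofReal.comp (S.dens_cont A x)).continuousOn
  have hf2c : ContinuousOn f2 O := by
    have h1 : ContinuousOn (fun z : E2 => |(S.D x y z).det| *
        S.dens A y (S.tr x y z)) O := hcc.mul ((S.dens_cont A y).comp_continuousOn htc)
    have h2 : EqOn f2 (fun z => ENNReal.ofReal (|(S.D x y z).det| *
        S.dens A y (S.tr x y z))) O := by
      intro z hz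
      exact (ENNReal.ofReal_mul (abs_nonneg _)).symm
    exact (ENNReal.continuous_ofReal.comp_continuousOn h1).congr h2
  have hint : ∀ Q : Set E2, MeasurableSet Q → Q ⊆ O → ∫⁻ z in Q, f1 z = ∫⁻ z in Q, f2 z := by
    intro Q hQ hQO
    have h1 := S.nu_image A x hQ
    have himg : MeasurableSet (S.tr x y '' Q) :=
      measurable_image_of_fderivWithin hQ
        (fun z hz => (hP z (hQO hz)).hasFDerivWithinAt) ((S.tr_inj x y).mono hQO)
    have h2 := S.nu_image A y himg
    have h3 : S.ai y '' (S.tr x y '' Q) = S.ai x '' Q := by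
      rw [image_image]
      exact image_congr fun z hz => S.ai_tr (hQO hz)
    rw [h3, h1] at h2
    rw [hf1, h2, lintegral_image_eq_lintegral_abs_det_fderiv_mul volume hQ
      (fun z hz => (hP z (hQO hz)).hasFDerivWithinAt) ((S.tr_inj x y).mono hQO)]
  have hae : f1 =ᵐ[volume.restrict O] f2 := by
    have m1 : AEMeasurable f1 (volume.restrict O) := hf1c.aemeasurable hOo.measurableSet
    have m2 : AEMeasurable f2 (volume.restrict O) := hf2c.aemeasurable hOo.measurableSet
    have : SigmaFinite (volume.restrict O : Measure E2) := inferInstance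
    refine ae_eq_of_forall_setLIntegral_eq_of_sigmaFinite₀ m1 m2 ?_
    intro Q hQ _
    rw [Measure.restrict_restrict hQ]
    exact hint _ (hQ.inter hOo.measurableSet) inter_subset_right
  have heq : EqOn f1 f2 O := Measure.eqOn_open_of_ae_eq hae hOo hf1c hf2c
  have h1 := heq (x := z) hz
  rw [hf1, hf2] at h1
  simp only at h1
  rw [← ENNReal.ofReal_mul (abs_nonneg _), ENNReal.ofReal_eq_ofReal_iff (S.dens_pos A _ _).le
    (mul_nonneg (abs_nonneg _) (S.dens_pos A _ _).le)] at h1
  rw [eq_div_iff (S.dens_pos A _ _).ne']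
  exact h1.symm

/-- the Jacobian of the holonomy at the common end point -/
theorem det_kp {x y : X} (h : L.ep x = L.ep y) :
    |(S.kp x y).det| = Real.exp (A.h * (L.lv (L.flip x) - L.lv (L.flip y))) *
      (A.s x 0 / A.s y 0) := by
  rw [S.kp_eq, S.det_tr A (S.ai_zero_ne h), S.tr_zero h]
  have p1 := A.s_pos y 0 zero_mem3
  have p2 := A.s_pos x 0 zero_mem3
  have hc := S.c_pow_pos
  have e1 : A.D (L.em x) (S.ai x 0) = L.lv x + L.lv (L.flip x) := by
    rw [S.ai_zero]; exact A.D_eq x
  have e2 : A.D (L.em y) (S.ai y 0) = L.lv y + L.lv (L.flip y) := by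
    rw [S.ai_zero]; exact A.D_eq y
  unfold dens Kc
  rw [e1, e2]
  have f1 : Real.exp (A.h * (L.lv x + L.lv (L.flip x))) =
      Real.exp (A.h * L.lv x) * Real.exp (A.h * L.lv (L.flip x)) := by
    rw [← Real.exp_add]; congr 1; ring
  have f2 : Real.exp (A.h * (L.lv y + L.lv (L.flip y))) =
      Real.exp (A.h * L.lv y) * Real.exp (A.h * L.lv (L.flip y)) := by
    rw [← Real.exp_add]; congr 1; ring
  have f3 : Real.exp (A.h * (L.lv (L.flip x) - L.lv (L.flip y))) =
      Real.exp (A.h * L.lv (L.flip x)) / Real.exp (A.h * L.lv (L.flip y)) := by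
    rw [← Real.exp_sub]; congr 1; ring
  have f4 : Real.exp (-A.h * L.lv x) = (Real.exp (A.h * L.lv x))⁻¹ := by
    rw [← Real.exp_neg]; congr 1; ring
  have f5 : Real.exp (-A.h * L.lv y) = (Real.exp (A.h * L.lv y))⁻¹ := by
    rw [← Real.exp_neg]; congr 1; ring
  rw [f1, f2, f3, f4, f5]
  have q1 := Real.exp_pos (A.h * L.lv x)
  have q2 := Real.exp_pos (A.h * L.lv y)
  have q3 := Real.exp_pos (A.h * L.lv (L.flip x))
  have q4 := Real.exp_pos (A.h * L.lv (L.flip y))
  field_simp

end AffS

end Vale.Agent.P207.N4.H883
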