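import Vale.Agent.P207.H883.St8

/-!
# P207, all dimensions: the equation of the normalised affine charts along an affine stable line
-/

open Set Filter Topology Metric
open scoped ContDiff

noncomputable section

namespace Vale.Agent.P207.N4.H883

variable [Dim]

variable {Γ X B : Type} [Group Γ] [MetricSpace X] [ProperSpace X] [MulAction Γ X]
  [IsIsometricSMul Γ X] [TopologicalSpace B] [CompactSpace B] [T2Space B] [MulAction Γ B]
  [ContinuousConstSMul Γ B]

variable {L : Leaf Γ X B}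

namespace AffS

variable (S : AffS L)

/-- the point with coordinate `z` of the stable leaf -/
def xi (x : X) (z : E2) : B := S.ai (L.flip x) z

/-- the frame above it -/
def yy (x : X) (z : E2) : X := L.hol (S.xi x z) x

/-- the normalised chart -/
def nb (x : X) (z : E2) (η : B) : E2 := S.kp (S.yy x z) x (S.a (S.yy x z) η)

lemma xi_ne (x : X) (z : E2) : S.xi x z ≠ L.ep x := by
  have := S.ai_ne (L.flip x) z
  rwa [em_flip] at this

lemma xi_zero (x : X) : S.xi x 0 = L.em x := by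
  rw [xi, S.ai_zero, ep_flip]

lemma em_yy (x : X) (z : E2) : L.em (S.yy x z) = S.xi x z := L.hol_em _ _ (S.xi_ne x z)

lemma ep_yy (x : X) (z : E2) : L.ep (S.yy x z) = L.ep x := L.hol_ep _ _ (S.xi_ne x z)

lemma yy_zero (x : X) : S.yy x 0 = x := by
  rw [yy, S.xi_zero, L.hol_self]

lemma nb_zero (x : X) (η : B) : S.nb x 0 η = S.a x η := by
  rw [nb, S.yy_zero, S.kp_self]
  rfl

lemma xi_inj (x : X) : Function.Injective (S.xi x) := by
  intro z z' h
  have h' : S.ai (L.flip x) z = S.ai (L.flip x) z' := h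
  have := congrArg (S.a (L.flip x)) h'
  rwa [S.a_ai, S.a_ai] at this

lemma xi_cont (x : X) : Continuous (S.xi x) := S.ai_cont' _

lemma yy_cont (x : X) : Continuous (S.yy x) := by
  rw [continuous_iff_continuousAt]
  intro z
  have h1 : ContinuousAt (fun p : B × X => L.hol p.1 p.2) (S.xi x z, x) := by
    refine (L.hol_cont (S.xi x z, x) (S.xi_ne x z)).continuousAt ?_
    refine IsOpen.mem_nhds ?_ (S.xi_ne x z)
    refine isOpen_ne_fun continuous_fst ?_
    have : L.ep = fun y => L.em (L.flip y) := funext L.ep_flip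
    rw [this]
    exact L.em_cont.comp (L.flip_cont.comp continuous_snd)
  have h2 : ContinuousAt (fun z => (S.xi x z, x)) z :=
    ((S.xi_cont x).continuousAt).prodMk continuousAt_const
  exact ContinuousAt.comp (f := fun z => (S.xi x z, x)) h1 h2

/-- the affine change of the stable leaf from the base `x` to the base `yy x z` -/
lemma stab_aff (x : X) (z : E2) : ∃ M : E2 ≃L[ℝ] E2,
    (∀ w, S.tr (L.flip x) (L.flip (S.yy x z)) w = M (w - z)) ∧
    ∀ w, S.D (L.flip x) (L.flip (S.yy x z)) w = M := by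
  have he : L.em (L.flip x) = L.em (L.flip (S.yy x z)) := by
    rw [em_flip, em_flip, S.ep_yy]
  obtain ⟨M, b, h1, h2⟩ := S.D_aff he
  refine ⟨M, fun w => ?_, h2⟩
  have h3 : S.tr (L.flip x) (L.flip (S.yy x z)) z = 0 := by
    have e : S.ai (L.flip x) z = L.ep (L.flip (S.yy x z)) := by
      rw [ep_flip, S.em_yy]; rfl
    unfold tr
    rw [e, S.a_ep]
  rw [h1] at h3
  rw [h1, map_sub]
  have : b = - M z := by
    rw [eq_neg_iff_add_eq_zero, add_comm]; exact h3
  rw [this]
  abel

/-- change of the base point -/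
lemma xi_base (x : X) (z : E2) (M : E2 ≃L[ℝ] E2)
    (hM : ∀ w, S.tr (L.flip x) (L.flip (S.yy x z)) w = M (w - z)) (w : E2) :
    S.xi (S.yy x z) (M (w - z)) = S.xi x w := by
  rw [← hM w, xi, xi]
  apply S.ai_tr
  have := S.ai_ne (L.flip x) w
  rw [em_flip] at this ⊢
  rw [S.ep_yy]
  exact this

lemma yy_base (x : X) (z : E2) (M : E2 ≃L[ℝ] E2)
    (hM : ∀ w, S.tr (L.flip x) (L.flip (S.yy x z)) w = M (w - z)) (w : E2) :
    S.yy (S.yy x z) (M (w - z)) = S.yy x w := by
  unfold yy
  have h := S.xi_base x z M hM w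
  unfold yy at h
  rw [h]
  exact L.hol_hol _ _ _ (S.xi_ne x z) (S.xi_ne x w)

lemma nb_base (x : X) (z : E2) (M : E2 ≃L[ℝ] E2)
    (hM : ∀ w, S.tr (L.flip x) (L.flip (S.yy x z)) w = M (w - z)) (w : E2) (η : B) :
    S.nb x w η = S.kp (S.yy x z) x (S.nb (S.yy x z) (M (w - z)) η) := by
  unfold nb
  rw [S.yy_base x z M hM w]
  have h1 : L.ep (S.yy x w) = L.ep (S.yy x z) := by rw [S.ep_yy, S.ep_yy]
  have h2 : L.ep (S.yy x w) = L.ep x := S.ep_yy x w
  rw [S.kp_comp h1 h2]
  rfl

end AffS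

namespace St8

variable (S : St8 L)

lemma hasFDerivAt_nb (x : X) {η : B} (h : η ≠ L.em x) :
    HasFDerivAt (fun z : E2 => S.nb x z η) ((1 / 2 : ℝ) • S.P x (S.a x η) (S.a x η)) 0 := by
  have := S.der x η h
  refine this.congr_of_eventuallyEq (Eventually.of_forall fun z => ?_)
  have e : (S.kp x (S.yy x z)).inverse = S.kp (S.yy x z) x := S.kp_inv (S.ep_yy x z).symm
  show S.nb x z η = (S.kp x (S.yy x z)).inverse (S.a (S.yy x z) η)
  rw [e]
  rfl

/-- The equation. -/
theorem hasDerivAt_nb (x : X) (α : E2) (t : ℝ) {η : B} (h : η ≠ S.xi x (t • α)) :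
    HasDerivAt (fun s : ℝ => S.nb x (s • α) η)
      ((1 / 2 : ℝ) • S.P x (S.nb x (t • α) η) (S.nb x (t • α) η) α) t := by
  obtain ⟨M, hM, hD⟩ := S.stab_aff x (t • α)
  set y := S.yy x (t • α) with hy
  have hy1 : η ≠ L.em y := by rw [hy, S.em_yy]; exact h
  have h1 := S.hasFDerivAt_nb y hy1
  have h2 : HasDerivAt (fun s : ℝ => M (s • α - t • α)) (M α) t := by
    have : HasDerivAt (fun s : ℝ => s • α - t • α) α t := by
      have := ((hasDerivAt_id t).smul_const α).sub_const (t • α)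
      simpa using this
    exact (M : E2 →L[ℝ] E2).hasFDerivAt.comp_hasDerivAt t this
  have h0 : M (t • α - t • α) = 0 := by rw [sub_self, map_zero]
  have h3 : HasDerivAt (fun s : ℝ => S.nb y (M (s • α - t • α)) η)
      (((1 / 2 : ℝ) • S.P y (S.a y η) (S.a y η)) (M α)) t := by
    have h1' : HasFDerivAt (fun z : E2 => S.nb y z η) ((1 / 2 : ℝ) • S.P y (S.a y η) (S.a y η))
        (M (t • α - t • α)) := by rw [h0]; exact h1
    exact h1'.comp_hasDerivAt t h2
  have h4 := (S.kp y x).hasFDerivAt.comp_hasDerivAt t h3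
  have h5 : (fun s : ℝ => S.nb x (s • α) η)
      = fun s => S.kp y x (S.nb y (M (s • α - t • α)) η) :=
    funext fun s => S.nb_base x (t • α) M hM (s • α) η
  rw [h5]
  refine h4.congr_deriv ?_
  have hyx : L.ep x = L.ep y := by rw [hy, S.ep_yy]
  have hu : S.nb x (t • α) η = S.kp y x (S.a y η) := rfl
  have hk : S.a y η = S.kp x y (S.kp y x (S.a y η)) := (S.kp_kp hyx.symm _).symm
  have h6 := S.par x y hyx (S.kp y x (S.a y η)) α
  rw [← hk] at h6
  have hMd : fderiv ℝ (fun z => S.a (L.flip y) (S.ai (L.flip x) z)) 0 = M := hD 0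
  rw [hMd] at h6
  show S.kp y x ((1 / 2 : ℝ) • S.P y (S.a y η) (S.a y η) (M α)) = _
  rw [map_smul]
  have h7 : S.P y (S.a y η) (S.a y η) (M α) = S.kp x y (S.P x (S.kp y x (S.a y η))
    (S.kp y x (S.a y η)) α) := h6
  rw [h7, S.kp_kp hyx, ← hu]

end St8

end Vale.Agent.P207.N4.H883
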