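import Vale.Agent.P207.H883.Unst8
import Vale.Agent.P207.H883.Nu8

/-!
# P207, all dimensions: the determinant of the quadratic field, transformation law
-/

open Set Filter Topology Metric MeasureTheory
open scoped ContDiff ENNReal

noncomputable section

namespace Vale.Agent.P207.N4.H883

variable [Dim]

variable {Γ X B : Type} [Group Γ] [MetricSpace X] [ProperSpace X] [MulAction Γ X]
  [IsIsometricSMul Γ X] [TopologicalSpace B] [CompactSpace B] [T2Space B] [MulAction Γ B]
  [ContinuousConstSMul Γ B] [MeasurableSpace B] [BorelSpace B]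

variable {L : Leaf Γ X B}

namespace St8

variable (S : St8 L) (A : Area L)

/-- the scalar density of the quadratic field -/
def rho (x : X) (u : E2) : ℝ := |(S.P x u u).det| / (A.s x 0 * A.s (L.flip x) 0)

lemma ss_pos (x : X) : 0 < A.s x 0 * A.s (L.flip x) 0 :=
  mul_pos (A.s_pos _ _ zero_mem3) (A.s_pos _ _ zero_mem3)

/-- algebra of the law -/
lemma law_aux {a b k k' σ σ' : ℝ} (hσ : 0 < σ) (hσ' : 0 < σ') (hk' : 0 < k')
    (h1 : a * k' = k * b) (h2 : k * k' = σ / σ') : a / σ' = k ^ 2 * (b / σ) := by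
  have h3 : a = k * b / k' := by rw [eq_div_iff hk'.ne']; exact h1
  have h4 : σ = k * k' * σ' := by rw [h2]; field_simp
  rw [h3, h4]
  have hk : k ≠ 0 := by
    rintro rfl
    rw [zero_mul, zero_mul] at h4
    exact hσ.ne' h4
  field_simp

lemma rho_kp {x y : X} (h : L.ep x = L.ep y) (u : E2) :
    S.rho A y (S.kp x y u) = |(S.kp x y).det| ^ 2 * S.rho A x u := by
  set κ' := S.D (L.flip x) (L.flip y) 0 with hκ'
  have h1 : (S.P y (S.kp x y u) (S.kp x y u)).comp κ' = (S.kp x y).comp (S.P x u u) :=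
    ContinuousLinearMap.ext fun α => S.par x y h u α
  have h2 := congrArg (fun T : E2 →L[ℝ] E2 => |T.det|) h1
  simp only [det_comp', abs_mul] at h2
  have he : L.em (L.flip x) = L.em (L.flip y) := by rw [em_flip, em_flip, h]
  have hd' : |κ'.det| = _ := S.det_same A he 0
  have hd := S.det_kp A h
  have p1 := A.s_pos x 0 zero_mem3
  have p2 := A.s_pos y 0 zero_mem3
  have p3 := A.s_pos (L.flip x) 0 zero_mem3
  have p4 := A.s_pos (L.flip y) 0 zero_mem3
  unfold rho
  refine law_aux (ss_pos A x) (ss_pos A y) ?_ h2 ?_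
  · rw [hd']; positivity
  · rw [hd', hd]
    have e1 : Real.exp (A.h * (L.lv (L.flip x) - L.lv (L.flip y))) *
        Real.exp (A.h * (L.lv (L.flip y) - L.lv (L.flip x))) = 1 := by
      rw [← Real.exp_add, ← Real.exp_zero]; congr 1; ring
    calc _ = (Real.exp (A.h * (L.lv (L.flip x) - L.lv (L.flip y))) *
        Real.exp (A.h * (L.lv (L.flip y) - L.lv (L.flip x)))) *
        (A.s x 0 / A.s y 0 * (A.s (L.flip x) 0 / A.s (L.flip y) 0)) := by ring
      _ = _ := by rw [e1, one_mul, div_mul_div_comm]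

lemma rho_same {x y : X} (h : L.em x = L.em y) (z : E2) (u : E2) :
    S.rho A y (S.D x y z u) = |(S.D x y z).det| ^ 2 * S.rho A x u := by
  rw [S.D_same h z 0]
  set κ' := S.kp (L.flip x) (L.flip y) with hκ'
  have h1 : (S.P y (S.D x y 0 u) (S.D x y 0 u)).comp κ' = (S.D x y 0).comp (S.P x u u) :=
    ContinuousLinearMap.ext fun α => S.unst h u α
  have h2 := congrArg (fun T : E2 →L[ℝ] E2 => |T.det|) h1
  simp only [det_comp', abs_mul] at h2
  have he : L.ep (L.flip x) = L.ep (L.flip y) := by rw [ep_flip, ep_flip, h]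
  have hd' := S.det_kp A he
  rw [L.flip_flip, L.flip_flip] at hd'
  have hd := S.det_same A h 0
  have p1 := A.s_pos x 0 zero_mem3
  have p2 := A.s_pos y 0 zero_mem3
  have p3 := A.s_pos (L.flip x) 0 zero_mem3
  have p4 := A.s_pos (L.flip y) 0 zero_mem3
  unfold rho
  refine law_aux (ss_pos A x) (ss_pos A y) ?_ h2 ?_
  · rw [hκ', hd']; positivity
  · rw [hκ', hd', hd]
    have e1 : Real.exp (A.h * (L.lv y - L.lv x)) * Real.exp (A.h * (L.lv x - L.lv y)) = 1 := by
      rw [← Real.exp_add, ← Real.exp_zero]; congr 1; ring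
    calc _ = (Real.exp (A.h * (L.lv y - L.lv x)) * Real.exp (A.h * (L.lv x - L.lv y))) *
        (A.s x 0 / A.s y 0 * (A.s (L.flip x) 0 / A.s (L.flip y) 0)) := by ring
      _ = _ := by rw [e1, one_mul, div_mul_div_comm]

/-- **the law for all transitions** -/
theorem rho_law {x y : X} {z : E2} (hz : S.ai x z ≠ L.em y) (u : E2) :
    S.rho A y (S.D x y z u) = |(S.D x y z).det| ^ 2 * S.rho A x u := by
  obtain ⟨x1, hx1, hx2, -⟩ := L.exists_frame (L.em x) (S.ai x z) (S.ai_ne x z).symm 0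
  obtain ⟨y1, hy1, hy2, -⟩ := L.exists_frame (L.em y) (S.ai x z) hz.symm 0
  have n1 : S.ai x z ≠ L.em x1 := by rw [hx1]; exact S.ai_ne x z
  have n2 : S.ai x z ≠ L.em y1 := by rw [hy1]; exact hz
  have hxy : L.ep x1 = L.ep y1 := by rw [hx2, hy2]
  have h1 : S.D x y z = (S.D x1 y (S.tr x x1 z)).comp (S.D x x1 z) := S.D_comp n1 hz
  have t0 : S.tr x x1 z = 0 := by
    unfold AffS.tr
    rw [← hx2, S.a_ep]
  rw [t0] at h1
  have n3 : S.ai x1 0 ≠ L.em y1 := S.ai_zero_ne hxy
  have n4 : S.ai x1 0 ≠ L.em y := by rw [← hy1]; exact n3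
  have h2 : S.D x1 y 0 = (S.D y1 y (S.tr x1 y1 0)).comp (S.D x1 y1 0) := S.D_comp n3 n4
  rw [S.tr_zero hxy] at h2
  have h3 : S.D x1 y1 0 = S.kp x1 y1 := rfl
  rw [h3] at h2
  rw [h1, h2]
  show S.rho A y (S.D y1 y 0 (S.kp x1 y1 (S.D x x1 z u))) = _
  rw [S.rho_same A hy1, S.rho_kp A hxy, S.rho_same A hx1.symm, det_comp', det_comp', abs_mul,
    abs_mul]
  ring

end St8

end Vale.Agent.P207.N4.H883
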