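import Vale.Agent.P207.N4.Spec

/-!
# P207, all dimensions: the input of the assembly of step 8

`St8`: affine charts `a x` of the unstable leaves with inverse `ai x`, `C¹` stable holonomies in the
affine charts, and the derivative of the holonomies along the affine stable leaves: the quadratic
field `P x`. `D x y z` is the derivative of the transition `z ↦ a y (ai x z)`.
-/

open Set Filter Topology Metric
open scoped ContDiff

noncomputable section

namespace Vale.Agent.P207.N4.H883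

variable [Dim]

variable {Γ X B : Type} [Group Γ] [MetricSpace X] [ProperSpace X] [MulAction Γ X]
  [IsIsometricSMul Γ X] [TopologicalSpace B] [CompactSpace B] [T2Space B] [MulAction Γ B]
  [ContinuousConstSMul Γ B]

/-- the affine charts of the unstable leaves, with `C¹` holonomies -/
structure AffS (L : Leaf Γ X B) where
  a : X → B → E2
  ai : X → E2 → B
  ai_ne : ∀ x z, ai x z ≠ L.em x
  a_ai : ∀ x z, a x (ai x z) = z
  ai_a : ∀ x η, η ≠ L.em x → ai x (a x η) = η
  a_cont : ContinuousOn (fun p : X × B => a p.1 p.2) {p | p.2 ≠ L.em p.1}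
  ai_cont : Continuous fun p : X × E2 => ai p.1 p.2
  a_ep : ∀ x, a x (L.ep x) = 0
  a_smul : ∀ (g : Γ) x η, η ≠ L.em x → a (g • x) (g • η) = a x η
  a_C1 : ∀ x, ContDiffOn ℝ 1 (fun u => a x (L.e x u)) (ball 0 3)
  c : ℝ
  c_pos : 0 < c
  a_d : ∀ x, fderiv ℝ (fun u => a x (L.e x u)) 0 = c • ContinuousLinearMap.id ℝ E2
  a_dcont : ContinuousOn (fun p : X × E2 => fderiv ℝ (fun u => a p.1 (L.e p.1 u)) p.2)
    (univ ×ˢ ball 0 3)
  a_aff : ∀ x y, L.em x = L.em y → ∃ (M : E2 ≃L[ℝ] E2) (b : E2), ∀ η, η ≠ L.em x →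
    a y η = M (a x η) + b
  /-- the stable holonomies are `C¹` in the affine charts -/
  hol_C1 : ∀ x y, L.em x ≠ L.em y →
    ContDiffOn ℝ 1 (fun z => a y (ai x z)) {a x (L.em y)}ᶜ

namespace AffS

variable {L : Leaf Γ X B} (S : AffS L)

/-- the transition from the affine chart of `x` to the affine chart of `y` -/
def tr (x y : X) (z : E2) : E2 := S.a y (S.ai x z)

/-- its derivative -/
def D (x y : X) (z : E2) : E2 →L[ℝ] E2 := fderiv ℝ (S.tr x y) z

/-- the derivative of the holonomy at the common end point -/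
def kp (x y : X) : E2 →L[ℝ] E2 := fderiv ℝ (fun z => S.a y (S.ai x z)) 0

lemma kp_eq (x y : X) : S.kp x y = S.D x y 0 := rfl

end AffS

/-- the input of step 8 -/
structure St8 (L : Leaf Γ X B) extends AffS L where
  P : X → E2 →L[ℝ] E2 →L[ℝ] E2 →L[ℝ] E2
  P_symm : ∀ x u v, P x u v = P x v u
  P_cont : ∀ u v α, Continuous fun x => P x u v α
  P_smul : ∀ (g : Γ) x, P (g • x) = P x
  /-- derivative of the normalised holonomies along the affine stable leaf -/
  der : ∀ x η, η ≠ L.em x → HasFDerivAt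
    (fun z : E2 => (toAffS.kp x (L.hol (ai (L.flip x) z) x)).inverse
      (a (L.hol (ai (L.flip x) z) x) η)) ((1 / 2 : ℝ) • P x (a x η) (a x η)) 0
  /-- `P` is parallel along the stable leaves -/
  par : ∀ x y, L.ep x = L.ep y → ∀ u α, P y (toAffS.kp x y u) (toAffS.kp x y u)
    (fderiv ℝ (fun z => a (L.flip y) (ai (L.flip x) z)) 0 α) = toAffS.kp x y (P x u u α)

lemma em_flip (L : Leaf Γ X B) (x : X) : L.em (L.flip x) = L.ep x := (L.ep_flip x).symm

lemma ep_flip (L : Leaf Γ X B) (x : X) : L.ep (L.flip x) = L.em x := by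
  rw [L.ep_flip, L.flip_flip]

namespace AffS

variable {L : Leaf Γ X B} (S : AffS L)

lemma ai_zero (x : X) : S.ai x 0 = L.ep x := by
  rw [← S.a_ep x]
  exact S.ai_a x _ (L.em_ne_ep x).symm

lemma ep_ne_em {x y : X} (h : L.ep x = L.ep y) : L.ep x ≠ L.em y := by
  rw [h]; exact (L.em_ne_ep y).symm

lemma ai_zero_ne {x y : X} (h : L.ep x = L.ep y) : S.ai x 0 ≠ L.em y := by
  rw [S.ai_zero]; exact ep_ne_em h

lemma ai_tr {x y : X} {z : E2} (h : S.ai x z ≠ L.em y) : S.ai y (S.tr x y z) = S.ai x z :=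
  S.ai_a y _ h

lemma tr_tr {x y : X} (w : X) {z : E2} (h : S.ai x z ≠ L.em y) :
    S.tr y w (S.tr x y z) = S.tr x w z := by
  unfold tr
  rw [S.ai_a y _ h]

lemma tr_self (x : X) (z : E2) : S.tr x x z = z := S.a_ai x z

lemma tr_a {x y : X} {η : B} (h : η ≠ L.em x) : S.tr x y (S.a x η) = S.a y η := by
  unfold tr; rw [S.ai_a x _ h]

lemma tr_zero {x y : X} (h : L.ep x = L.ep y) : S.tr x y 0 = 0 := by
  unfold tr; rw [S.ai_zero, h, S.a_ep]

lemma ai_cont' (x : X) : Continuous (S.ai x) :=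
  S.ai_cont.comp (Continuous.prodMk continuous_const continuous_id)

lemma a_cont' (x : X) : ContinuousOn (S.a x) {η | η ≠ L.em x} :=
  S.a_cont.comp (f := fun η : B => (x, η)) (by fun_prop) fun _ h => h

lemma isOpen_ne' (x y : X) : IsOpen {z : E2 | S.ai x z ≠ L.em y} :=
  isOpen_ne.preimage (S.ai_cont' x)

/-- on one leaf the transition is affine -/
lemma tr_aff {x y : X} (h : L.em x = L.em y) :
    ∃ (M : E2 ≃L[ℝ] E2) (b : E2), ∀ z, S.tr x y z = M z + b := by
  obtain ⟨M, b, hM⟩ := S.a_aff x y h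
  refine ⟨M, b, fun z => ?_⟩
  have := hM (S.ai x z) (S.ai_ne x z)
  rw [S.a_ai] at this
  exact this

lemma tr_C1 {x y : X} {z : E2} (h : S.ai x z ≠ L.em y) : ContDiffAt ℝ 1 (S.tr x y) z := by
  by_cases he : L.em x = L.em y
  · obtain ⟨M, b, hM⟩ := S.tr_aff he
    have e : S.tr x y = fun z => M z + b := funext hM
    rw [e]
    fun_prop
  · refine (S.hol_C1 x y he).contDiffAt (isOpen_ne.mem_nhds ?_)
    intro hz
    apply h
    rw [hz]
    exact S.ai_a x _ (fun h' => he h'.symm)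

lemma hasD {x y : X} {z : E2} (h : S.ai x z ≠ L.em y) : HasFDerivAt (S.tr x y) (S.D x y z) z :=
  ((S.tr_C1 h).differentiableAt one_ne_zero).hasFDerivAt

lemma D_comp {x y w : X} {z : E2} (h1 : S.ai x z ≠ L.em y) (h2 : S.ai x z ≠ L.em w) :
    S.D x w z = (S.D y w (S.tr x y z)).comp (S.D x y z) := by
  have e1 := S.hasD h1
  have h2' : S.ai y (S.tr x y z) ≠ L.em w := by rw [S.ai_tr h1]; exact h2
  have e2 := (S.hasD h2').comp z e1
  have e3 : (S.tr y w) ∘ (S.tr x y) =ᶠ[𝓝 z] S.tr x w := by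
    filter_upwards [(S.isOpen_ne' x y).mem_nhds h1] with z' hz'
    exact S.tr_tr w hz'
  exact (S.hasD h2).unique (e2.congr_of_eventuallyEq e3.symm)

lemma D_self (x : X) (z : E2) : S.D x x z = ContinuousLinearMap.id ℝ E2 := by
  have : S.tr x x = fun z => z := funext (S.tr_self x)
  unfold D
  rw [this]
  exact fderiv_fun_id

lemma D_inv {x y : X} {z : E2} (h : S.ai x z ≠ L.em y) :
    (S.D y x (S.tr x y z)).comp (S.D x y z) = ContinuousLinearMap.id ℝ E2 := by
  rw [← S.D_comp h (S.ai_ne x z), S.D_self]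

lemma D_inv' {x y : X} {z : E2} (h : S.ai x z ≠ L.em y) :
    (S.D x y z).comp (S.D y x (S.tr x y z)) = ContinuousLinearMap.id ℝ E2 := by
  have h1 : S.ai y (S.tr x y z) ≠ L.em x := by rw [S.ai_tr h]; exact S.ai_ne x z
  have := S.D_inv h1
  rw [S.tr_tr x h, S.tr_self] at this
  exact this

/-- the derivative as an equivalence -/
def De {x y : X} {z : E2} (h : S.ai x z ≠ L.em y) : E2 ≃L[ℝ] E2 :=
  ContinuousLinearEquiv.equivOfInverse (S.D x y z) (S.D y x (S.tr x y z))
    (fun u => by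
      have := S.D_inv h
      exact congrArg (fun T : E2 →L[ℝ] E2 => T u) this)
    (fun u => by
      have := S.D_inv' h
      exact congrArg (fun T : E2 →L[ℝ] E2 => T u) this)

lemma De_coe {x y : X} {z : E2} (h : S.ai x z ≠ L.em y) :
    (S.De h : E2 →L[ℝ] E2) = S.D x y z := rfl

lemma De_apply {x y : X} {z : E2} (h : S.ai x z ≠ L.em y) (u : E2) :
    S.De h u = S.D x y z u := rfl

lemma D_inverse {x y : X} {z : E2} (h : S.ai x z ≠ L.em y) :
    (S.D x y z).inverse = S.D y x (S.tr x y z) := by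
  rw [← S.De_coe h, ContinuousLinearMap.inverse_equiv]
  rfl

lemma D_aff {x y : X} (h : L.em x = L.em y) : ∃ (M : E2 ≃L[ℝ] E2) (b : E2),
    (∀ z, S.tr x y z = M z + b) ∧ ∀ z, S.D x y z = M := by
  obtain ⟨M, b, hM⟩ := S.tr_aff h
  refine ⟨M, b, hM, fun z => ?_⟩
  have e : S.tr x y = fun z => M z + b := funext hM
  unfold D
  rw [e]
  have : HasFDerivAt (fun z : E2 => M z + b) (M : E2 →L[ℝ] E2) z :=
    (M.hasFDerivAt (x := z)).add_const b
  exact this.fderiv

lemma D_same {x y : X} (h : L.em x = L.em y) (z z' : E2) : S.D x y z = S.D x y z' := by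
  obtain ⟨M, b, -, hD⟩ := S.D_aff h
  rw [hD z, hD z']

lemma kp_comp {x y w : X} (h1 : L.ep x = L.ep y) (h2 : L.ep x = L.ep w) :
    S.kp x w = (S.kp y w).comp (S.kp x y) := by
  rw [S.kp_eq, S.D_comp (S.ai_zero_ne h1) (S.ai_zero_ne h2), S.tr_zero h1]
  rfl

lemma kp_self (x : X) : S.kp x x = ContinuousLinearMap.id ℝ E2 := S.D_self x 0

lemma kp_inv {x y : X} (h : L.ep x = L.ep y) : (S.kp x y).inverse = S.kp y x := by
  rw [S.kp_eq, S.D_inverse (S.ai_zero_ne h), S.tr_zero h]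
  rfl

lemma kp_kp {x y : X} (h : L.ep x = L.ep y) (u : E2) : S.kp y x (S.kp x y u) = u := by
  have := S.kp_comp (x := x) (y := y) (w := x) h rfl
  rw [S.kp_self] at this
  exact (congrArg (fun T : E2 →L[ℝ] E2 => T u) this).symm

/-- properness of the affine chart at the point `em x` -/
lemma tendsto_ai (x : X) {ι : Type*} {l : Filter ι} {z : ι → E2}
    (hz : Tendsto (fun i => ‖z i‖) l atTop) : Tendsto (fun i => S.ai x (z i)) l (𝓝 (L.em x)) := by
  rw [tendsto_iff_ultrafilter]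
  intro U hU
  obtain ⟨η, hη⟩ : ∃ η, Tendsto (fun i => S.ai x (z i)) U (𝓝 η) := by
    obtain ⟨η, -, hη⟩ := isCompact_univ.ultrafilter_le_nhds
      (U.map fun i => S.ai x (z i)) (by simp)
    exact ⟨η, hη⟩
  by_cases he : η = L.em x
  · rw [← he]; exact hη
  · exfalso
    have h1 : Tendsto (fun i => S.a x (S.ai x (z i))) U (𝓝 (S.a x η)) :=
      (((S.a_cont' x) η he).continuousAt (isOpen_ne.mem_nhds he)).tendsto.comp hη
    simp only [S.a_ai] at h1
    exact not_tendsto_nhds_of_tendsto_atTop (hz.mono_left hU) _ h1.norm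

/-- blow up: frames `y i → y`, boundary points `η i → em y` have unbounded coordinates -/
lemma tendsto_a {ι : Type*} {l : Filter ι} {y : ι → X} {η : ι → B} {y0 : X}
    (hy : Tendsto y l (𝓝 y0)) (hη : Tendsto η l (𝓝 (L.em y0))) (hne : ∀ᶠ i in l, η i ≠ L.em (y i)) :
    Tendsto (fun i => ‖S.a (y i) (η i)‖) l atTop := by
  rw [Filter.tendsto_atTop]
  intro R
  by_contra hR
  have hR' : ∃ᶠ i in l, ‖S.a (y i) (η i)‖ ≤ R := by
    intro h
    exact hR (h.mono fun i hi => (not_le.1 hi).le)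
  have hnb : NeBot (l ⊓ 𝓟 {i | ‖S.a (y i) (η i)‖ ≤ R}) := frequently_mem_iff_neBot.1 hR'
  set U := Ultrafilter.of (l ⊓ 𝓟 {i | ‖S.a (y i) (η i)‖ ≤ R}) with hUdef
  have hU : (U : Filter ι) ≤ l ⊓ 𝓟 {i | ‖S.a (y i) (η i)‖ ≤ R} := Ultrafilter.of_le _
  have hUl : (U : Filter ι) ≤ l := hU.trans inf_le_left
  have hUR : ∀ᶠ i in (U : Filter ι), ‖S.a (y i) (η i)‖ ≤ R :=
    le_principal_iff.1 (hU.trans inf_le_right)
  obtain ⟨z, -, hz⟩ : ∃ z ∈ closedBall (0 : E2) R, Tendsto (fun i => S.a (y i) (η i)) U (𝓝 z) := by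
    refine (isCompact_closedBall (0 : E2) R).ultrafilter_le_nhds
      (U.map fun i => S.a (y i) (η i)) ?_
    rw [le_principal_iff]
    have h : ∀ᶠ i in (U : Filter ι), S.a (y i) (η i) ∈ closedBall (0 : E2) R :=
      hUR.mono fun i hi => mem_closedBall_zero_iff.2 hi
    exact h
  have h1 : Tendsto (fun i => S.ai (y i) (S.a (y i) (η i))) U (𝓝 (S.ai y0 z)) :=
    (S.ai_cont.tendsto (y0, z)).comp ((hy.mono_left hUl).prodMk_nhds hz)
  have h2 : Tendsto η U (𝓝 (S.ai y0 z)) := by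
    refine h1.congr' ?_
    filter_upwards [hUl hne] with i hi
    exact S.ai_a _ _ hi
  exact S.ai_ne y0 z (tendsto_nhds_unique h2 (hη.mono_left hUl))

end AffS

end Vale.Agent.P207.N4.H883
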