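import Vale.Agent.P207.H883.Ode8
import Vale.Agent.P207.H883.AffCore

/-!
# P207, all dimensions: the quadratic field is parallel along the unstable leaves
-/

open Set Filter Topology Metric
open scoped ContDiff

noncomputable section

namespace Vale.Agent.P207.N4.H883

open Vale.Agent.P207.H883.AffCore (aff_core)

variable [Dim]

variable {Γ X B : Type} [Group Γ] [MetricSpace X] [ProperSpace X] [MulAction Γ X]
  [IsIsometricSMul Γ X] [TopologicalSpace B] [CompactSpace B] [T2Space B] [MulAction Γ B]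
  [ContinuousConstSMul Γ B]

variable {L : Leaf Γ X B}

namespace St8

variable (S : St8 L)

/-- **`P` is parallel along the unstable leaves** -/
theorem unst {x y : X} (h : L.em x = L.em y) (u α : E2) :
    S.P y (S.D x y 0 u) (S.D x y 0 u) (S.kp (L.flip x) (L.flip y) α)
      = S.D x y 0 (S.P x u u α) := by
  obtain ⟨M, b, hM, hD⟩ := S.D_aff h
  have hfe : L.ep (L.flip x) = L.ep (L.flip y) := by rw [ep_flip, ep_flip, h]
  have hn : S.ai (L.flip x) 0 ≠ L.em (L.flip y) := S.ai_zero_ne hfe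
  set zp : E2 → E2 := S.tr (L.flip x) (L.flip y) with hzp
  have hzp0 : zp 0 = 0 := S.tr_zero hfe
  have hzpd : HasFDerivAt zp (S.kp (L.flip x) (L.flip y)) 0 := S.hasD hn
  -- the points
  have hxi : ∀ᶠ z in 𝓝 (0 : E2), S.xi y (zp z) = S.xi x z := by
    filter_upwards [(S.isOpen_ne' (L.flip x) (L.flip y)).mem_nhds hn] with z hz
    exact S.ai_tr hz
  -- the affine changes
  have hA : ∀ z : E2, ∃ (N : E2 →L[ℝ] E2) (c : E2), S.xi y (zp z) = S.xi x z →
      ∀ η, η ≠ S.xi x z → S.nb y (zp z) η = N (S.nb x z η) + c := by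
    intro z
    by_cases hz : S.xi y (zp z) = S.xi x z
    · have he : L.em (S.yy x z) = L.em (S.yy y (zp z)) := by
        rw [S.em_yy, S.em_yy, hz]
      obtain ⟨M', b', h1, -⟩ := S.D_aff he
      refine ⟨(S.kp (S.yy y (zp z)) y).comp ((M' : E2 →L[ℝ] E2).comp (S.kp x (S.yy x z))),
        S.kp (S.yy y (zp z)) y b', fun _ η hη => ?_⟩
      have hη' : η ≠ L.em (S.yy x z) := by rw [S.em_yy]; exact hη
      have h2 := h1 (S.a (S.yy x z) η)
      rw [S.tr_a hη'] at h2
      have h3 : S.kp x (S.yy x z) (S.nb x z η) = S.a (S.yy x z) η :=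
        S.kp_kp (S.ep_yy x z) _
      show S.kp (S.yy y (zp z)) y (S.a (S.yy y (zp z)) η) =
        S.kp (S.yy y (zp z)) y (M' (S.kp x (S.yy x z) (S.nb x z η))) +
          S.kp (S.yy y (zp z)) y b'
      rw [h3, h2, map_add]
    · exact ⟨0, 0, fun h' => absurd h' hz⟩
  choose N c hNc using hA
  -- the families
  have hne : ∀ X, S.ai x X ≠ L.em x := S.ai_ne x
  have hney : ∀ X, S.ai x X ≠ L.em y := fun X => by rw [← h]; exact S.ai_ne x X
  have hF : ∀ X : E2, HasFDerivAt (fun z => S.nb x z (S.ai x X))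
      ((1 / 2 : ℝ) • S.P x X X) 0 := by
    intro X
    have := S.hasFDerivAt_nb x (hne X)
    rwa [S.a_ai] at this
  have hG : ∀ X : E2, HasFDerivAt (fun z => S.nb y (zp z) (S.ai x X))
      (((1 / 2 : ℝ) • S.P y (M X + b) (M X + b)).comp (S.kp (L.flip x) (L.flip y))) 0 := by
    intro X
    have h1 := S.hasFDerivAt_nb y (hney X)
    have h2 : S.a y (S.ai x X) = M X + b := hM X
    rw [h2, ← hzp0] at h1
    exact h1.comp 0 hzpd
  have F0 : ∀ X : E2, S.nb x 0 (S.ai x X) = X := fun X => by rw [S.nb_zero, S.a_ai]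
  have G0 : ∀ X : E2, S.nb y (zp 0) (S.ai x X) = (M : E2 →L[ℝ] E2) X + b := fun X => by
    rw [hzp0, S.nb_zero]; exact hM X
  have h1 : ∀ X : E2, ∀ᶠ z in 𝓝 (0 : E2), S.nb y (zp z) (S.ai x X) =
      N z (S.nb x z (S.ai x X)) + c z := by
    intro X
    have hc : ∀ᶠ z in 𝓝 (0 : E2), S.ai x X ≠ S.xi x z := by
      have h3 : ContinuousAt (S.xi x) 0 := (S.xi_cont x).continuousAt
      have h4 : S.xi x 0 ≠ S.ai x X := by rw [S.xi_zero]; exact (S.ai_ne x X).symm
      filter_upwards [h3.eventually_ne h4] with z hz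
      exact hz.symm
    filter_upwards [hxi, hc] with z hz1 hz2
    exact hNc z hz1 _ hz2
  have key := aff_core (F := fun z X => S.nb x z (S.ai x X))
    (G := fun z X => S.nb y (zp z) (S.ai x X)) h1 hF hG F0 G0 u
  have key2 := congrArg (fun T : E2 →L[ℝ] E2 => T α) key
  rw [hD 0]
  set κ := S.kp (L.flip x) (L.flip y) with hκ
  have e1 : ∀ X Y : E2, S.P y (X + Y) (X + Y) = S.P y X X + (2 : ℝ) • S.P y X Y + S.P y Y Y := by
    intro X Y
    refine ContinuousLinearMap.ext fun v => ?_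
    simp only [map_add, _root_.add_apply, _root_.smul_apply]
    rw [S.P_symm y Y X]
    module
  have e2 : ∀ (s : ℝ) (X : E2), S.P x (s • X) (s • X) = (s * s) • S.P x X X := by
    intro s X
    simp only [map_smul, _root_.smul_apply, smul_smul]
  have e3 : ∀ (s : ℝ) (X : E2), S.P y (s • X) (s • X) = (s * s) • S.P y X X := by
    intro s X
    simp only [map_smul, _root_.smul_apply, smul_smul]
  have e4 : ∀ (s : ℝ) (X Y : E2), S.P y (s • X) Y = s • S.P y X Y := by
    intro s X Y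
    simp only [map_smul, _root_.smul_apply]
  have z1 : S.P y (0 : E2) (0 : E2) = 0 := by simp
  have z2 : S.P x (0 : E2) (0 : E2) = 0 := by simp
  have z3 : S.P y (0 : E2) b = 0 := by simp
  simp only [map_smul, e1, e2, e3, e4, map_zero, z1, z2, z3] at key2
  simp only [ContinuousLinearMap.comp_apply, _root_.sub_apply, _root_.add_apply,
    _root_.smul_apply, smul_zero, zero_add, add_zero, _root_.zero_apply, map_add, map_sub,
    map_smul, sub_zero, smul_smul] at key2
  set p := S.P y (M u) (M u) (κ α) with hp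
  set q := S.P y (M u) b (κ α) with hq
  set r := S.P y b b (κ α) with hr
  have k1 : p = (1 / 2 : ℝ) • ((2 * 2 : ℝ) • p + (2 * 2 : ℝ) • q + r) -
      (2 * (1 / 2) : ℝ) • (p + (2 : ℝ) • q + r) + (1 / 2 : ℝ) • r := by module
  have k2 : (M : E2 →L[ℝ] E2) (S.P x u u α) = (1 / 2 * (2 * 2) : ℝ) •
      (M : E2 →L[ℝ] E2) (S.P x u u α) - (2 * (1 / 2) : ℝ) • (M : E2 →L[ℝ] E2) (S.P x u u α) := by
    module
  rw [k2, ← key2]
  exact k1

end St8

end Vale.Agent.P207.N4.H883
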